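import Vale.Agent.P153.Spec.Main
import Vale.Agent.P153.Nu.Stm

/-! Part III with bounded offsets. -/

namespace Vale.P153.Spec

open MeasureTheory Filter Topology Complex
open scoped BigOperators

theorem Etr_decay_unif {R M2 M4 : ℝ} (hR : 0 ≤ R) :
    ∃ C : ℝ, ∀ φ : ℂ → ℝ, ContDiff ℝ 4 φ → Bd R φ → Up φ → (∀ x, ‖iteratedFDeriv ℝ 2 φ x‖ ≤ M2) →
      (∀ x, ‖iteratedFDeriv ℝ 4 φ x‖ ≤ M4) →
      ∀ δ : ℝ, 0 < δ → δ ≤ 1 → ∀ z : ℝ × ℝ, 0 ≤ z.1 → z.1 ≤ 1 →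
      ((1 - z.1) ^ 2 + 2 * (1 - Real.cos z.2)) * ‖Etr δ φ z‖ ≤ C ∧
      ((1 - z.1) ^ 2 + 2 * (1 - Real.cos z.2)) ^ 2 * ‖Etr δ φ z‖ ≤ C * δ ^ 2 := by
  set K := (2 * (R + 8) + 3) * (R + 8 + 1) with hK
  have K0 : 0 ≤ K := by positivity
  refine ⟨8 * (K * M2) + 64 * (K * M4), fun φ hs hφ hu hM2 hM4 δ hδ hδ1 z z0 z1 => ?_⟩
  have hs2 : ContDiff ℝ (2 : ℕ) φ := hs.of_le (by norm_num)
  have hs4 : ContDiff ℝ (4 : ℕ) φ := hs
  have p2 : 0 ≤ M2 := (norm_nonneg _).trans (hM2 0)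
  have p4 : 0 ≤ M4 := (norm_nonneg _).trans (hM4 0)
  have hδn : ‖(δ : ℂ)‖ ≤ 2 * δ := by
    rw [norm_real, Real.norm_of_nonneg hδ.le]; linarith
  have a1 := Etr_iter_bound hR hφ (by norm_num) hs2 hM2 hδ hδ1 (norm_dn hδ) z0 z1
  have a2 := Etr_iter_bound hR hφ (by norm_num) hs2 hM2 hδ hδ1 hδn z0 z1
  have a3 := Etr_iter_bound hR hφ (by norm_num) hs4 hM4 hδ hδ1 (norm_dn hδ) z0 z1
  have a4 := Etr_iter_bound hR hφ (by norm_num) hs4 hM4 hδ hδ1 hδn z0 z1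
  have n1 : ‖(z.1 : ℂ) - 1‖ = 1 - z.1 := by
    rw [norm_sub_rev, ← ofReal_one, ← ofReal_sub, norm_real, Real.norm_of_nonneg (by linarith)]
  have n2 := norm_exp_sub_one_sq z.2
  have n4 : ‖Complex.exp (((-z.2 : ℝ) : ℂ) * I) - 1‖ ^ 4 = (2 * (1 - Real.cos z.2)) ^ 2 := by
    rw [← n2]; ring
  rw [Etr_iter_t hδ hφ hu, norm_mul, norm_pow, n1, ← hK] at a1 a3
  rw [Etr_iter_s hδ hφ, norm_mul, norm_pow, ← hK] at a2 a4
  rw [n2] at a2
  rw [n4] at a4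
  have e2 : K * (M2 * (2 * δ) ^ 2) / δ ^ 2 = 4 * (K * M2) := by field_simp; ring
  have e4 : K * (M4 * (2 * δ) ^ 4) / δ ^ 2 = 16 * (K * M4 * δ ^ 2) := by field_simp; ring
  rw [e2] at a1 a2
  rw [e4] at a3 a4
  have q2 : 0 ≤ K * M2 := by positivity
  have q4 : 0 ≤ K * M4 := by positivity
  have q5 : 0 ≤ K * M2 * δ ^ 2 := by positivity
  constructor
  · linarith only [a1, a2, q4]
  · have := mul_nonneg (sq_nonneg ((1 - z.1) ^ 2 - 2 * (1 - Real.cos z.2)))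
      (norm_nonneg (Etr δ φ z))
    linarith only [a3, a4, q5, this]

variable {W : ℤ × ℕ → ℝ} {m : Measure (ℝ × ℝ)}

theorem rect_tendsto_seq (hW : RectRP W) (hm : Represents W m) {φ : ℕ → ℂ → ℝ} {R C : ℝ}
    (hφ : ∀ n, Bd R (φ n)) (hu : ∀ n, Up (φ n))
    (hC : ∀ n, ∀ δ : ℝ, 0 < δ → δ ≤ 1 → ∀ z : ℝ × ℝ, 0 ≤ z.1 → z.1 ≤ 1 →
      ((1 - z.1) ^ 2 + 2 * (1 - Real.cos z.2)) * ‖Etr δ (φ n) z‖ ≤ C ∧
      ((1 - z.1) ^ 2 + 2 * (1 - Real.cos z.2)) ^ 2 * ‖Etr δ (φ n) z‖ ≤ C * δ ^ 2)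
    {δ : ℕ → ℝ} (hpos : ∀ n, 0 < δ n) (hδ : Tendsto δ atTop (𝓝 0)) :
    Tendsto (fun n => ∫ z, ‖Etr (δ n) (Lp (δ n) (φ n)) z‖ ^ 2 / D z ∂m) atTop (𝓝 0) := by
  have := hm.fin
  have hev : ∀ᶠ n in atTop, δ n ≤ 1 := hδ.eventually (ge_mem_nhds one_pos)
  simp only [fun n => Etr_Lp (hpos n) (hφ n) (hu n)]
  have := tendsto_integral_filter_of_dominated_convergence (μ := m) (l := atTop)
    (F := fun n z => ‖(ell z : ℂ) * Etr (δ n) (φ n) z‖ ^ 2 / D z) (f := fun _ => 0)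
    (fun z => C ^ 2 * (gfun z / D z + 2)) (Eventually.of_forall fun n => ?_) ?_
    (((integrable_gfun hW hm).add (integrable_const 2)).const_mul _) ?_
  · simpa using this
  · have h1 := continuous_Etr (hpos n) (hφ n)
    have h2 : Continuous ell := by unfold ell; fun_prop
    exact (Measurable.div (Continuous.measurable (by fun_prop)) measurable_D).aestronglyMeasurable
  · filter_upwards [hev] with n hn
    filter_upwards [hm.supp] with z hz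
    have hD := hz.2.2
    have hp := den_pos hz.2.1 hD
    have h1 := (hC n _ (hpos n) hn z hz.1 hz.2.1).1
    have h2 := pow_le_pow_left₀ (by positivity) h1 2
    have h3 := ell_sq_le hz.1 hz.2.1 hD
    have g0 : 0 ≤ gfun z := by unfold gfun; positivity
    rw [Real.norm_of_nonneg (by positivity), div_le_iff₀ hD, norm_mul, mul_pow, norm_real,
      Real.norm_eq_abs, sq_abs]
    have e : C ^ 2 * (gfun z / D z + 2) * D z = (gfun z + 2 * D z) * C ^ 2 := by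
      field_simp
    rw [e]
    calc _ ≤ (gfun z + 2 * D z) * ((1 - z.1) ^ 2 + 2 * (1 - Real.cos z.2)) ^ 2 *
          ‖Etr (δ n) (φ n) z‖ ^ 2 := mul_le_mul_of_nonneg_right h3 (by positivity)
      _ = (gfun z + 2 * D z) * (((1 - z.1) ^ 2 + 2 * (1 - Real.cos z.2)) *
          ‖Etr (δ n) (φ n) z‖) ^ 2 := by ring
      _ ≤ _ := mul_le_mul_of_nonneg_left h2 (by positivity)
  · filter_upwards [hm.supp] with z hz
    have hp := den_pos hz.2.1 hz.2.2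
    have t1 : Tendsto (fun n => Etr (δ n) (φ n) z) atTop (𝓝 0) := by
      have t0 : Tendsto (fun n => C * δ n ^ 2 / ((1 - z.1) ^ 2 + 2 * (1 - Real.cos z.2)) ^ 2)
          atTop (𝓝 0) := by
        simpa using ((hδ.pow 2).const_mul C).div_const
          (((1 - z.1) ^ 2 + 2 * (1 - Real.cos z.2)) ^ 2)
      refine squeeze_zero_norm' ?_ t0
      filter_upwards [hev] with n hn
      rw [le_div_iff₀' (by positivity)]
      exact (hC n _ (hpos n) hn z hz.1 hz.2.1).2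
    simpa using (((t1.const_mul (ell z : ℂ)).norm.pow 2).div_const (D z))

/-- Part III with bounded offsets. -/
theorem har : Vale.Agent.P153.Nu.Har := by
  intro V hV φ hs hc δ c B hpos hδ hB h0 S hS
  obtain ⟨m, hm⟩ := rep hV.rect
  obtain ⟨R, hR, hφ⟩ := hc.exists_pos_le_norm
  have hs2 : ContDiff ℝ (2 : ℕ) φ := hs.of_le (by norm_num)
  have hs4 : ContDiff ℝ (4 : ℕ) φ := hs
  obtain ⟨M2, hM2⟩ := (hs2.continuous_iteratedFDeriv').bounded_above_of_compact_support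
    (hc.iteratedFDeriv (𝕜 := ℝ) 2)
  obtain ⟨M4, hM4⟩ := (hs4.continuous_iteratedFDeriv').bounded_above_of_compact_support
    (hc.iteratedFDeriv (𝕜 := ℝ) 4)
  have B0 : 0 ≤ B := (norm_nonneg _).trans (hB 0)
  have b0 : Bd R φ := hφ
  have hb : ∀ n, Bd (R + B) fun z => φ (z + c n) := fun n =>
    (b0.shift (c n)).mono (by linarith [hB n])
  have hcn : ∀ n, HasCompactSupport fun z => φ (z + c n) := fun n =>
    hc.comp_homeomorph (Homeomorph.addRight (c n))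
  obtain ⟨C, hC⟩ := Etr_decay_unif (R := R + B) (M2 := M2) (M4 := M4) (by linarith)
  have key := rect_tendsto_seq hV.rect hm (φ := fun n z => φ (z + c n)) hb h0
    (fun n => hC _ (hs.comp (by fun_prop)) (hb n) (h0 n)
      (fun x => by rw [iteratedFDeriv_comp_add_right]; exact hM2 _)
      (fun x => by rw [iteratedFDeriv_comp_add_right]; exact hM4 _)) hpos hδ
  refine key.congr fun n => ?_
  have hS' : ∀ x, lap (fun y => (fun z => φ (z + c n)) (δ n * pos y)) x ≠ 0 → x ∈ S n := hS n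
  have hu : Up fun z => φ (z + c n) := h0 n
  simp only [Etr_Lp_eq (φ := fun z => φ (z + c n)) hS']
  rw [← quad_eq hm _ _ (fun y => y) (sum_Lp_zero (hpos n) (hcn n) hu hS'),
    sum_lap (hpos n) hu _ fun x h => by simp [h]]
  congr 1
  apply Finset.sum_congr rfl
  intro x _
  rw [sum_lap (hpos n) hu _ fun y h => by simp [h]]
  simp only [← lap_emb, emb_sub]

end Vale.P153.Spec
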