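import Vale.Agent.P153.Spec.Defs

/-! The semigroup algebra of the half lattice and the positivity of the functional. -/

namespace Vale.P153.Spec

open Filter Topology
open scoped BigOperators

/-- semigroup algebra of the half lattice -/
abbrev Al := AddMonoidAlgebra ℝ (ℤ × ℕ)

/-- basis element -/
noncomputable def e (s : ℤ) (t : ℕ) : Al := AddMonoidAlgebra.single (s, t) 1

lemma e_mul (s s' : ℤ) (t t' : ℕ) : e s t * e s' t' = e (s + s') (t + t') := by
  simp [e, AddMonoidAlgebra.single_mul_single]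

lemma e_zero : e 0 0 = 1 := rfl

lemma e_pow (k : ℕ) : e 0 1 ^ k = e 0 k := by
  induction k with
  | zero => simp [e_zero]
  | succ k ih => rw [pow_succ, ih, e_mul]; simp

/-- the functional -/
noncomputable def Lam (W : ℤ × ℕ → ℝ) : Al →ₗ[ℝ] ℝ :=
  (-(1 / 2 : ℝ)) • ((Finsupp.linearCombination ℝ W).comp
    (AddMonoidAlgebra.coeffLinearEquiv ℝ).toLinearMap)

lemma Lam_single (W : ℤ × ℕ → ℝ) (x : ℤ × ℕ) (r : ℝ) :
    Lam W (AddMonoidAlgebra.single x r) = -(1 / 2) * (r * W x) := by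
  simp [Lam]

lemma Lam_e (W : ℤ × ℕ → ℝ) (s : ℤ) (t : ℕ) : Lam W (e s t) = -(1 / 2) * W (s, t) := by
  simp [e, Lam_single]

/-- reflection on indices -/
def th0 : ℤ × ℕ →+ ℤ × ℕ where
  toFun x := (-x.1, x.2)
  map_zero' := by simp
  map_add' x y := by ext <;> simp [add_comm]

/-- reflection -/
noncomputable def th : Al →ₐ[ℝ] Al := AddMonoidAlgebra.mapDomainAlgHom ℝ ℝ th0

lemma th_single (x : ℤ × ℕ) (r : ℝ) :
    th (AddMonoidAlgebra.single x r) = AddMonoidAlgebra.single (-x.1, x.2) r := by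
  simp [th, th0]

lemma th_e (s : ℤ) (t : ℕ) : th (e s t) = e (-s) t := th_single _ _

/-- sum of coefficients -/
noncomputable def sig : Al →ₐ[ℝ] ℝ := AddMonoidAlgebra.lift ℝ ℝ (ℤ × ℕ) 1

lemma sig_single (x : ℤ × ℕ) (r : ℝ) : sig (AddMonoidAlgebra.single x r) = r := by
  simp [sig]

lemma sig_e (s : ℤ) (t : ℕ) : sig (e s t) = 1 := sig_single _ _

lemma as_sum (q : Al) : q = ∑ x ∈ q.coeff.support, AddMonoidAlgebra.single x (q.coeff x) :=
  (AddMonoidAlgebra.sum_coeff_single q).symm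

lemma Lam_quad (W : ℤ × ℕ → ℝ) (S : Finset (ℤ × ℕ)) (a : ℤ × ℕ → ℝ) (k : ℕ) :
    Lam W ((∑ x ∈ S, AddMonoidAlgebra.single x (a x)) *
      th (∑ x ∈ S, AddMonoidAlgebra.single x (a x)) * e 0 k) =
      -(1 / 2) * ∑ x ∈ S, ∑ y ∈ S, a x * a y * W (x.1 - y.1, x.2 + y.2 + k) := by
  rw [map_sum, Finset.sum_mul_sum, Finset.sum_mul, map_sum, Finset.mul_sum]
  apply Finset.sum_congr rfl
  intro x _
  rw [Finset.sum_mul, map_sum, Finset.mul_sum]
  apply Finset.sum_congr rfl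
  intro y _
  rw [th_single, e, AddMonoidAlgebra.single_mul_single, AddMonoidAlgebra.single_mul_single,
    Lam_single, mul_one]
  have : (x + (-y.1, y.2) + (0, k) : ℤ × ℕ) = (x.1 - y.1, x.2 + y.2 + k) := by
    ext <;> simp [sub_eq_add_neg]
  rw [this]

variable {W : ℤ × ℕ → ℝ}

lemma pos01 (hW : RectRP W) (q : Al) (hq : sig q = 0) :
    0 ≤ Lam W (q * th q) ∧ 0 ≤ Lam W (q * th q * e 0 1) := by
  have hs : ∑ x ∈ q.coeff.support, q.coeff x = 0 := by
    rw [as_sum q, map_sum] at hq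
    simpa [sig_single] using hq
  constructor
  · have := Lam_quad W q.coeff.support q.coeff 0
    rw [← as_sum q, e_zero, mul_one] at this
    rw [this]
    have := hW.rp0 _ _ hs
    simp only [add_zero]
    linarith
  · have := Lam_quad W q.coeff.support q.coeff 1
    rw [← as_sum q] at this
    rw [this]
    have := hW.rp1 _ _ hs
    linarith

lemma th_T : th (e 0 1) = e 0 1 := by rw [th_e]; rfl

lemma posA (hW : RectRP W) (q : Al) (hq : sig q = 0) (k : ℕ) :
    0 ≤ Lam W (q * th q * e 0 1 ^ k) := by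
  have h := fun j : ℕ => pos01 hW (q * e 0 1 ^ j) (by simp [hq])
  rcases Nat.even_or_odd' k with ⟨j, rfl | rfl⟩
  · have := (h j).1
    rw [map_mul th, map_pow th, th_T] at this
    have e1 : q * th q * e 0 1 ^ (2 * j) = q * e 0 1 ^ j * (th q * e 0 1 ^ j) := by ring
    rwa [e1]
  · have := (h j).2
    rw [map_mul th, map_pow th, th_T] at this
    have e1 : q * th q * e 0 1 ^ (2 * j + 1) = q * e 0 1 ^ j * (th q * e 0 1 ^ j) * e 0 1 := by
      ring
    rwa [e1]

lemma Lam_sublin (hW : RectRP W) (f : Al) :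
    ∀ ε : ℝ, 0 < ε → ∃ C : ℝ, ∀ M : ℕ, |Lam W (f * e 0 1 ^ M)| ≤ C + ε * M := by
  induction f using AddMonoidAlgebra.induction_linear with
  | zero => intro ε hε; exact ⟨0, fun M => by simp; positivity⟩
  | add f g hf hg =>
    intro ε hε
    obtain ⟨C1, h1⟩ := hf (ε / 2) (by positivity)
    obtain ⟨C2, h2⟩ := hg (ε / 2) (by positivity)
    refine ⟨C1 + C2, fun M => ?_⟩
    rw [add_mul, map_add]
    have := abs_add_le (Lam W (f * e 0 1 ^ M)) (Lam W (g * e 0 1 ^ M))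
    have := h1 M
    have := h2 M
    linarith
  | single x r =>
    intro ε hε
    have hr : 0 < |r| + 1 := by positivity
    obtain ⟨C, h⟩ := hW.growth (ε / (|r| + 1)) (by positivity)
    refine ⟨|r| * |C| + ε * (|(x.1 : ℝ)| + x.2), fun M => ?_⟩
    rw [e_pow, e, AddMonoidAlgebra.single_mul_single, Lam_single, mul_one]
    have : (x + (0, M) : ℤ × ℕ) = (x.1, x.2 + M) := by ext <;> simp
    rw [this, abs_mul, abs_mul]
    have h1 := h x.1 (x.2 + M)
    push_cast at h1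
    have h2 : |r| * |W (x.1, x.2 + M)| ≤ |r| * (|C| + ε / (|r| + 1) * (|(x.1 : ℝ)| + (x.2 + M))) :=
      mul_le_mul_of_nonneg_left (h1.trans (by have := le_abs_self C; linarith)) (abs_nonneg _)
    have h3 : |r| * (ε / (|r| + 1) * (|(x.1 : ℝ)| + (x.2 + M))) ≤ ε * (|(x.1 : ℝ)| + (x.2 + M)) := by
      rw [← mul_assoc]
      apply mul_le_mul_of_nonneg_right _ (by positivity)
      rw [mul_div_assoc', div_le_iff₀ hr]
      nlinarith [abs_nonneg r]
    have h4 : |(-(1 / 2) : ℝ)| = 1 / 2 := by norm_num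
    have h5 : 0 ≤ |r| * |W (x.1, x.2 + M)| := by positivity
    rw [h4]
    rw [mul_add] at h2
    linarith

lemma nonneg_of_antitone {u : ℕ → ℝ} (hu : Antitone u)
    (h : ∀ ε : ℝ, 0 < ε → ∃ C : ℝ, ∀ M : ℕ, |∑ N ∈ Finset.range M, u N| ≤ C + ε * M) (k : ℕ) :
    0 ≤ u k := by
  by_contra hk
  push Not at hk
  obtain ⟨C, hC⟩ := h (-u k / 2) (by linarith)
  have hb : ∀ M : ℕ, ∑ N ∈ Finset.range (k + M), u N ≤ ∑ N ∈ Finset.range k, u N + M * u k := by
    intro M
    rw [Finset.sum_range_add]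
    have : ∑ N ∈ Finset.range M, u (k + N) ≤ ∑ N ∈ Finset.range M, u k :=
      Finset.sum_le_sum fun N _ => hu (Nat.le_add_right k N)
    simp only [Finset.sum_const, Finset.card_range, nsmul_eq_mul] at this
    linarith
  obtain ⟨M, hM⟩ := exists_nat_gt
    ((C + (-u k / 2) * k + ∑ N ∈ Finset.range k, u N) / (-u k / 2))
  rw [div_lt_iff₀ (by linarith)] at hM
  have h1 := hb M
  have h2 := (abs_le.1 (hC (k + M))).1
  push_cast at h2
  linarith

lemma posB (hW : RectRP W) (q : Al) (k : ℕ) :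
    0 ≤ Lam W (q * th q * ((1 - e 0 1) * e 0 1 ^ k)) := by
  apply nonneg_of_antitone (u := fun k => Lam W (q * th q * ((1 - e 0 1) * e 0 1 ^ k)))
  · apply antitone_nat_of_succ_le
    intro n
    have := posA hW (q * (1 - e 0 1)) (by simp [sig_e]) n
    rw [map_mul th, map_sub th, map_one th, th_T] at this
    have e1 : q * (1 - e 0 1) * (th q * (1 - e 0 1)) * e 0 1 ^ n =
        q * th q * ((1 - e 0 1) * e 0 1 ^ n) - q * th q * ((1 - e 0 1) * e 0 1 ^ (n + 1)) := by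
      ring
    rw [e1, map_sub] at this
    linarith
  · intro ε hε
    obtain ⟨C, hC⟩ := Lam_sublin hW (q * th q) ε hε
    refine ⟨|Lam W (q * th q)| + C, fun M => ?_⟩
    rw [← map_sum, ← Finset.mul_sum, ← Finset.mul_sum, mul_neg_geom_sum, mul_sub, mul_one, map_sub]
    have := abs_sub (Lam W (q * th q)) (Lam W (q * th q * e 0 1 ^ M))
    have := hC M
    linarith

/-- `(1 + cos p)/2` -/
noncomputable def yy : Al := (1 / 4 : ℝ) • (2 + e 1 0 + e (-1) 0)

lemma e_one_neg : e 1 0 * e (-1) 0 = 1 := by rw [e_mul]; rfl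

lemma yy_sq : yy = ((1 / 2 : ℝ) • (1 + e 1 0)) * th ((1 / 2 : ℝ) • (1 + e 1 0)) := by
  rw [map_smul, map_add, map_one, th_e, smul_mul_smul_comm, yy]
  have : (1 + e 1 0) * (1 + e (-1) 0) = 2 + e 1 0 + e (-1) 0 := by
    linear_combination e_one_neg
  rw [this]
  norm_num

lemma four_yy : 4 * yy = 2 + e 1 0 + e (-1) 0 := by
  rw [yy, mul_smul_comm, ← smul_mul_assoc]
  have : (1 / 4 : ℝ) • (4 : Al) = 1 := by
    have h : (4 : Al) = (4 : ℝ) • (1 : Al) := by
      rw [← Algebra.algebraMap_eq_smul_one, map_ofNat]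
    rw [h, smul_smul]
    norm_num
  rw [this, one_mul]

lemma one_sub_yy_sq :
    1 - yy = ((1 / 2 : ℝ) • (1 - e 1 0)) * th ((1 / 2 : ℝ) • (1 - e 1 0)) := by
  rw [map_smul, map_sub, map_one, th_e, smul_mul_smul_comm]
  have : (1 - e 1 0) * (1 - e (-1) 0) = 4 * (1 - yy) := by
    linear_combination e_one_neg + four_yy
  rw [this]
  have h : (4 : Al) = (4 : ℝ) • (1 : Al) := by
    rw [← Algebra.algebraMap_eq_smul_one, map_ofNat]
  rw [h, smul_mul_assoc, smul_smul]
  norm_num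

lemma posC (hW : RectRP W) (a b c d : ℕ) (h : 0 < b ∨ 0 < d) :
    0 ≤ Lam W (e 0 1 ^ a * (1 - e 0 1) ^ b * yy ^ c * (1 - yy) ^ d) := by
  set q0 : Al := ((1 / 2 : ℝ) • (1 + e 1 0)) ^ c * ((1 / 2 : ℝ) • (1 - e 1 0)) ^ d with hq0
  have h0 : yy ^ c * (1 - yy) ^ d = q0 * th q0 := by
    rw [one_sub_yy_sq, hq0, map_mul, map_pow, map_pow]
    conv_lhs => rw [yy_sq]
    ring
  rcases Nat.even_or_odd' b with ⟨j, rfl | rfl⟩
  · have := posA hW (q0 * (1 - e 0 1) ^ j) (by
      rcases h with h | h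
      · have : j ≠ 0 := by omega
        simp [sig_e, this]
      · have : d ≠ 0 := by omega
        simp [hq0, sig_e, this]) a
    rw [map_mul th, map_pow th, map_sub th, map_one th, th_T] at this
    have e1 : e 0 1 ^ a * (1 - e 0 1) ^ (2 * j) * yy ^ c * (1 - yy) ^ d
        = q0 * (1 - e 0 1) ^ j * (th q0 * (1 - e 0 1) ^ j) * e 0 1 ^ a := by
      linear_combination (e 0 1 ^ a * (1 - e 0 1) ^ (2 * j)) * h0
    rwa [e1]
  · have := posB hW (q0 * (1 - e 0 1) ^ j) a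
    rw [map_mul th, map_pow th, map_sub th, map_one th, th_T] at this
    have e1 : e 0 1 ^ a * (1 - e 0 1) ^ (2 * j + 1) * yy ^ c * (1 - yy) ^ d
        = q0 * (1 - e 0 1) ^ j * (th q0 * (1 - e 0 1) ^ j) * ((1 - e 0 1) * e 0 1 ^ a) := by
      linear_combination (e 0 1 ^ a * (1 - e 0 1) ^ (2 * j + 1)) * h0
    rwa [e1]

/-- lazy random walk step `1 - D/4` -/
noncomputable def BB : Al := (1 / 4 : ℝ) • (1 + e 0 1 + 2 * yy)

lemma e_mul_BB (s : ℤ) (t : ℕ) : e s t * BB =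
    (1 / 2 : ℝ) • e s t + (1 / 4 : ℝ) • e s (t + 1) + (1 / 8 : ℝ) • e (s + 1) t
      + (1 / 8 : ℝ) • e (s - 1) t := by
  have h1 : e s t * e 0 1 = e s (t + 1) := by rw [e_mul]; simp
  have h2 : e s t * e 1 0 = e (s + 1) t := by rw [e_mul]; simp
  have h3 : e s t * e (-1) 0 = e (s - 1) t := by rw [e_mul]; simp [sub_eq_add_neg]
  rw [BB, yy, ← h1, ← h2, ← h3]
  simp only [mul_smul_comm, mul_add, smul_add, mul_one, smul_smul, two_mul, mul_two]
  module

lemma Lam_BB (hW : RectRP W) :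
    ∀ ε : ℝ, 0 < ε → ∃ C : ℝ, ∀ M : ℕ, |Lam W (BB ^ M)| ≤ C + ε * M := by
  intro ε hε
  obtain ⟨C, hC⟩ := hW.growth ε hε
  have key : ∀ (M : ℕ) (s : ℤ) (t : ℕ),
      |Lam W (e s t * BB ^ M)| ≤ C + ε * (|(s : ℝ)| + t + M) := by
    intro M
    induction M with
    | zero =>
      intro s t
      rw [pow_zero, mul_one, Lam_e, abs_mul]
      have := hC s t
      have h4 : |(-(1 / 2) : ℝ)| = 1 / 2 := by norm_num
      have := abs_nonneg (W (s, t))
      rw [h4]
      simp only [Nat.cast_zero, add_zero]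
      linarith
    | succ M ih =>
      intro s t
      rw [pow_succ', ← mul_assoc, e_mul_BB]
      simp only [add_mul, smul_mul_assoc, map_add, map_smul, smul_eq_mul]
      have h1 := abs_le.1 (ih s t)
      have h2 := abs_le.1 (ih s (t + 1))
      have h3 := abs_le.1 (ih (s + 1) t)
      have h4 := abs_le.1 (ih (s - 1) t)
      have a3 : ε * |((s + 1 : ℤ) : ℝ)| ≤ ε * (|(s : ℝ)| + 1) := by
        apply mul_le_mul_of_nonneg_left _ hε.le
        push_cast
        simpa using abs_add_le (s : ℝ) 1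
      have a4 : ε * |((s - 1 : ℤ) : ℝ)| ≤ ε * (|(s : ℝ)| + 1) := by
        apply mul_le_mul_of_nonneg_left _ hε.le
        push_cast
        simpa using abs_sub (s : ℝ) 1
      simp only [mul_add, Nat.cast_add, Nat.cast_one, mul_one] at *
      rw [abs_le]
      constructor <;> linarith [h1.1, h1.2, h2.1, h2.2, h3.1, h3.2, h4.1, h4.2]
  refine ⟨C, fun M => ?_⟩
  simpa [e_zero] using key M 0 0

end Vale.P153.Spec
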