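import Vale.Agent.P153.Spec.Defs

/-! Sampled test functions, their Fourier-Laplace transform and finite differences. -/

namespace Vale.P153.Spec

open Filter Topology Complex
open scoped BigOperators

lemma fwdDiff_bound (h : ℂ) : ∀ (k : ℕ) (f : ℂ → ℝ) (M : ℝ), ContDiff ℝ k f →
    (∀ x, ‖iteratedFDeriv ℝ k f x‖ ≤ M) → ∀ x, |(fwdDiff h)^[k] f x| ≤ M * ‖h‖ ^ k := by
  intro k
  induction k with
  | zero =>
    intro f M _ hM x
    simpa using hM x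
  | succ k ih =>
    intro f M hf hM x
    have hk : ContDiff ℝ k f := hf.of_le (by exact_mod_cast Nat.le_succ k)
    have hs : ContDiff ℝ k (fun z => f (z + h)) := hk.comp (by fun_prop)
    have e : fwdDiff h f = (fun z => f (z + h)) - f := rfl
    rw [Function.iterate_succ_apply, pow_succ', ← mul_assoc]
    apply ih
    · rw [e]; exact hs.sub hk
    · intro y
      rw [e, iteratedFDeriv_sub_apply hs.contDiffAt hk.contDiffAt, iteratedFDeriv_comp_add_right]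
      have hd : Differentiable ℝ fun x => iteratedFDeriv ℝ k f x :=
        hf.differentiable_iteratedFDeriv (by exact_mod_cast Nat.lt_succ_self k)
      have := Convex.norm_image_sub_le_of_norm_fderiv_le (𝕜 := ℝ) (s := Set.univ)
        (f := iteratedFDeriv ℝ k f) (C := M) (x := y) (y := y + h) (fun x _ => hd x)
        (fun x _ => by rw [norm_fderiv_iteratedFDeriv]; exact hM x) convex_univ
        (Set.mem_univ _) (Set.mem_univ _)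
      simpa using this

/-- sample point -/
noncomputable def pt (δ : ℝ) (x : ℤ × ℕ) : ℂ :=
  (δ : ℂ) * ((x.1 : ℂ) + ((√3 : ℝ) : ℂ) * I * ((x.2 : ℂ) + 1))

/-- character -/
noncomputable def wt (z : ℝ × ℝ) (x : ℤ × ℕ) : ℂ :=
  (z.1 : ℂ) ^ x.2 * Complex.exp (((x.1 * z.2 : ℝ) : ℂ) * I)

/-- transform of the sampled function -/
noncomputable def Etr (δ : ℝ) (φ : ℂ → ℝ) (z : ℝ × ℝ) : ℂ :=
  ∑' x : ℤ × ℕ, (φ (pt δ x) : ℂ) * wt z x

/-- vanishing outside a ball -/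
def Bd (R : ℝ) (φ : ℂ → ℝ) : Prop := ∀ w, R ≤ ‖w‖ → φ w = 0

/-- vanishing on the closed lower half plane -/
def Up (φ : ℂ → ℝ) : Prop := ∀ w : ℂ, w.im ≤ 0 → φ w = 0

lemma pt_re (δ : ℝ) (x : ℤ × ℕ) : (pt δ x).re = δ * x.1 := by simp [pt]

lemma pt_im (δ : ℝ) (x : ℤ × ℕ) : (pt δ x).im = δ * (√3 * (x.2 + 1)) := by simp [pt]

/-- a box containing the support -/
noncomputable def box (N : ℕ) : Finset (ℤ × ℕ) := Finset.Icc (-(N : ℤ)) N ×ˢ Finset.range N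

lemma box_card (N : ℕ) : (box N).card = (2 * N + 1) * N := by
  simp only [box, Finset.card_product, Int.card_Icc, Finset.card_range]
  congr 1
  omega

lemma one_le_sqrt3 : (1 : ℝ) ≤ √3 := by
  rw [Real.one_le_sqrt]; norm_num

lemma sqrt3_le_two : √3 ≤ (2 : ℝ) := by
  rw [Real.sqrt_le_left (by norm_num)]; norm_num

lemma zero_off_box {δ R : ℝ} (hδ : 0 < δ) {φ : ℂ → ℝ} (hφ : Bd R φ) {x : ℤ × ℕ}
    (hx : x ∉ box ⌈R / δ⌉₊) : φ (pt δ x) = 0 := by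
  apply hφ
  by_contra hR
  push Not at hR
  apply hx
  have hN : R ≤ δ * ⌈R / δ⌉₊ := by
    have := Nat.le_ceil (R / δ)
    rwa [div_le_iff₀' hδ] at this
  have h1 := (abs_re_le_norm (pt δ x)).trans_lt (hR.trans_le hN)
  have h2 := (im_le_norm (pt δ x)).trans_lt (hR.trans_le hN)
  rw [pt_re, abs_mul, abs_of_pos hδ] at h1
  rw [pt_im] at h2
  have h3 := lt_of_mul_lt_mul_left h1 hδ.le
  have h4 := lt_of_mul_lt_mul_left h2 hδ.le
  have h5 : (x.2 : ℝ) + 1 ≤ √3 * (x.2 + 1) := le_mul_of_one_le_left (by positivity) one_le_sqrt3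
  have h6 : (x.2 : ℝ) < (⌈R / δ⌉₊ : ℕ) := by linarith
  have h7 : |x.1| < (⌈R / δ⌉₊ : ℕ) := by exact_mod_cast h3
  rw [abs_lt] at h7
  simp only [box, Finset.mem_product, Finset.mem_Icc, Finset.mem_range]
  exact ⟨⟨h7.1.le, h7.2.le⟩, by exact_mod_cast h6⟩

lemma Etr_eq {δ R : ℝ} (hδ : 0 < δ) {φ : ℂ → ℝ} (hφ : Bd R φ) (z : ℝ × ℝ) :
    Etr δ φ z = ∑ x ∈ box ⌈R / δ⌉₊, (φ (pt δ x) : ℂ) * wt z x :=
  tsum_eq_sum fun x hx => by simp [zero_off_box hδ hφ hx]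

lemma Etr_summable {δ R : ℝ} (hδ : 0 < δ) {φ : ℂ → ℝ} (hφ : Bd R φ) (z : ℝ × ℝ) :
    Summable fun x : ℤ × ℕ => (φ (pt δ x) : ℂ) * wt z x :=
  summable_of_ne_finset_zero (s := box ⌈R / δ⌉₊) fun x hx => by simp [zero_off_box hδ hφ hx]

lemma continuous_wt (x : ℤ × ℕ) : Continuous fun z => wt z x := by
  unfold wt
  fun_prop

lemma continuous_Etr {δ R : ℝ} (hδ : 0 < δ) {φ : ℂ → ℝ} (hφ : Bd R φ) : Continuous (Etr δ φ) := by
  have : Etr δ φ = fun z => ∑ x ∈ box ⌈R / δ⌉₊, (φ (pt δ x) : ℂ) * wt z x :=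
    funext (Etr_eq hδ hφ)
  rw [this]
  exact continuous_finsetSum _ fun x _ => (continuous_wt x).const_mul _

lemma norm_wt_le {z : ℝ × ℝ} (z0 : 0 ≤ z.1) (z1 : z.1 ≤ 1) (x : ℤ × ℕ) : ‖wt z x‖ ≤ 1 := by
  rw [wt, norm_mul, norm_exp_ofReal_mul_I, mul_one, norm_pow, norm_real, Real.norm_of_nonneg z0]
  exact pow_le_one₀ z0 z1

lemma Etr_bound {δ R M : ℝ} (hδ : 0 < δ) (hδ1 : δ ≤ 1) (hR : 0 ≤ R) {φ : ℂ → ℝ} (hφ : Bd R φ)
    (hM : ∀ w, |φ w| ≤ M) {z : ℝ × ℝ} (z0 : 0 ≤ z.1) (z1 : z.1 ≤ 1) :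
    ‖Etr δ φ z‖ ≤ (2 * R + 3) * (R + 1) * M / δ ^ 2 := by
  have M0 : 0 ≤ M := (abs_nonneg _).trans (hM 0)
  rw [Etr_eq hδ hφ]
  have h1 : ‖∑ x ∈ box ⌈R / δ⌉₊, (φ (pt δ x) : ℂ) * wt z x‖ ≤ ∑ x ∈ box ⌈R / δ⌉₊, M := by
    refine norm_sum_le_of_le _ fun x _ => ?_
    rw [norm_mul, norm_real, Real.norm_eq_abs]
    exact (mul_le_of_le_one_right (abs_nonneg _) (norm_wt_le z0 z1 x)).trans (hM _)
  refine h1.trans ?_
  rw [Finset.sum_const, box_card, nsmul_eq_mul]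
  have hN : δ * ⌈R / δ⌉₊ ≤ R + 1 := by
    have := (Nat.ceil_lt_add_one (div_nonneg hR hδ.le)).le
    have h2 := mul_le_mul_of_nonneg_left this hδ.le
    rw [mul_add, mul_div_cancel₀ _ hδ.ne'] at h2
    linarith
  rw [le_div_iff₀ (by positivity)]
  push_cast
  have e : (2 * (⌈R / δ⌉₊ : ℝ) + 1) * ⌈R / δ⌉₊ * M * δ ^ 2 =
      (2 * (δ * ⌈R / δ⌉₊) + δ) * (δ * ⌈R / δ⌉₊) * M := by ring
  rw [e]
  apply mul_le_mul_of_nonneg_right _ M0
  apply mul_le_mul (by linarith) hN (by positivity) (by positivity)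

lemma Bd.shift {R : ℝ} {φ : ℂ → ℝ} (hφ : Bd R φ) (h : ℂ) : Bd (R + ‖h‖) fun w => φ (w + h) := by
  intro w hw
  apply hφ
  have := norm_sub_le (w + h) h
  rw [add_sub_cancel_right] at this
  linarith

lemma Bd.mono {R R' : ℝ} {φ : ℂ → ℝ} (hφ : Bd R φ) (h : R ≤ R') : Bd R' φ :=
  fun w hw => hφ w (h.trans hw)

lemma Bd.fwd {R : ℝ} {φ : ℂ → ℝ} (hφ : Bd R φ) (h : ℂ) : Bd (R + ‖h‖) (fwdDiff h φ) := by
  intro w hw
  have h1 := hφ.shift h w hw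
  have h2 := hφ w (by have := norm_nonneg h; linarith)
  simp only [fwdDiff] at h1 ⊢
  rw [h1, h2, sub_zero]

lemma Bd.iter {R : ℝ} {φ : ℂ → ℝ} (hφ : Bd R φ) (h : ℂ) (k : ℕ) :
    Bd (R + k * ‖h‖) ((fwdDiff h)^[k] φ) := by
  induction k with
  | zero => simpa using hφ
  | succ k ih =>
    rw [Function.iterate_succ_apply']
    refine (ih.fwd h).mono (le_of_eq ?_)
    push_cast
    ring

lemma Up.shift {φ : ℂ → ℝ} (hφ : Up φ) {h : ℂ} (hh : h.im ≤ 0) : Up fun w => φ (w + h) := by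
  intro w hw
  apply hφ
  rw [add_im]
  linarith

lemma Up.iter {φ : ℂ → ℝ} (hφ : Up φ) {h : ℂ} (hh : h.im ≤ 0) (k : ℕ) :
    Up ((fwdDiff h)^[k] φ) := by
  induction k with
  | zero => simpa using hφ
  | succ k ih =>
    rw [Function.iterate_succ_apply']
    intro w hw
    have h1 := ih.shift hh w hw
    simp only [fwdDiff] at h1 ⊢
    rw [h1, ih w hw, sub_zero]

lemma Etr_shift_s (δ : ℝ) (φ : ℂ → ℝ) (z : ℝ × ℝ) (a : ℤ) :
    Etr δ (fun w => φ (w + δ * a)) z = Complex.exp (((-(a * z.2) : ℝ) : ℂ) * I) * Etr δ φ z := by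
  unfold Etr
  rw [← tsum_mul_left, ← ((Equiv.addRight a).prodCongr (Equiv.refl ℕ)).tsum_eq
    (fun x : ℤ × ℕ => Complex.exp (((-(a * z.2) : ℝ) : ℂ) * I) * ((φ (pt δ x) : ℂ) * wt z x))]
  apply tsum_congr
  rintro ⟨s, t⟩
  have e1 : pt δ (s, t) + δ * a = pt δ (s + a, t) := by
    simp only [pt]; push_cast; ring
  have e2 : wt z (s, t) = Complex.exp (((-(a * z.2) : ℝ) : ℂ) * I) * wt z (s + a, t) := by
    simp only [wt]
    rw [mul_left_comm, ← Complex.exp_add]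
    congr 2
    push_cast
    ring
  simp only [Equiv.prodCongr_apply, Equiv.coe_addRight, Equiv.coe_refl, Prod.map, id]
  rw [e1, e2]
  ring

/-- downward step -/
noncomputable def dn (δ : ℝ) : ℂ := -((δ : ℂ) * (((√3 : ℝ) : ℂ) * I))

lemma dn_im {δ : ℝ} (hδ : 0 < δ) : (dn δ).im ≤ 0 := by
  simp only [dn, neg_im, mul_im, ofReal_re, ofReal_im, I_re, I_im, mul_re]
  have : 0 ≤ δ * √3 := by positivity
  simpa using this

lemma norm_dn {δ : ℝ} (hδ : 0 < δ) : ‖dn δ‖ ≤ 2 * δ := by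
  simp only [dn, norm_neg, norm_mul, norm_real, norm_I, mul_one, Real.norm_eq_abs,
    abs_of_pos hδ, abs_of_nonneg (Real.sqrt_nonneg 3)]
  have := mul_le_mul_of_nonneg_left sqrt3_le_two hδ.le
  linarith

lemma Etr_shift_t (δ : ℝ) {φ : ℂ → ℝ} (hφ : Up φ) (z : ℝ × ℝ) :
    Etr δ (fun w => φ (w + dn δ)) z = z.1 * Etr δ φ z := by
  unfold Etr
  have inj : Function.Injective fun x : ℤ × ℕ => (x.1, x.2 + 1) := by
    rintro ⟨a, b⟩ ⟨c, d⟩ h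
    simp only [Prod.mk.injEq] at h ⊢
    omega
  rw [← tsum_mul_left, ← inj.tsum_eq (f := fun x : ℤ × ℕ => (φ (pt δ x + dn δ) : ℂ) * wt z x)]
  · apply tsum_congr
    rintro ⟨s, t⟩
    have e1 : pt δ (s, t + 1) + dn δ = pt δ (s, t) := by
      simp only [pt, dn]; push_cast; ring
    simp only [e1, wt]
    ring
  · rintro ⟨s, t⟩ hx
    rcases t with _ | t
    · exfalso
      apply hx
      have : φ (pt δ (s, 0) + dn δ) = 0 := by
        apply hφ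
        simp [pt_im, dn]
      simp [this]
    · exact ⟨(s, t), rfl⟩

lemma Etr_sub {δ R R' : ℝ} (hδ : 0 < δ) {φ ψ : ℂ → ℝ} (hφ : Bd R φ) (hψ : Bd R' ψ) (z : ℝ × ℝ) :
    Etr δ (fun w => φ w - ψ w) z = Etr δ φ z - Etr δ ψ z := by
  unfold Etr
  rw [← (Etr_summable hδ hφ z).tsum_sub (Etr_summable hδ hψ z)]
  apply tsum_congr
  intro x
  push_cast
  ring

lemma Etr_iter_t {δ R : ℝ} (hδ : 0 < δ) {φ : ℂ → ℝ} (hφ : Bd R φ) (hu : Up φ) (z : ℝ × ℝ)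
    (k : ℕ) : Etr δ ((fwdDiff (dn δ))^[k] φ) z = ((z.1 : ℂ) - 1) ^ k * Etr δ φ z := by
  induction k with
  | zero => simp
  | succ k ih =>
    rw [Function.iterate_succ_apply']
    have := Etr_sub hδ ((hφ.iter (dn δ) k).shift (dn δ)) (hφ.iter (dn δ) k) z
    rw [Etr_shift_t δ (hu.iter (dn_im hδ) k), ih] at this
    exact this.trans (by ring)

lemma Etr_iter_s {δ R : ℝ} (hδ : 0 < δ) {φ : ℂ → ℝ} (hφ : Bd R φ) (z : ℝ × ℝ) (k : ℕ) :
    Etr δ ((fwdDiff (δ : ℂ))^[k] φ) z =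
      (Complex.exp (((-z.2 : ℝ) : ℂ) * I) - 1) ^ k * Etr δ φ z := by
  induction k with
  | zero => simp
  | succ k ih =>
    rw [Function.iterate_succ_apply']
    have := Etr_sub hδ ((hφ.iter (δ : ℂ) k).shift (δ : ℂ)) (hφ.iter (δ : ℂ) k) z
    have h2 := Etr_shift_s δ ((fwdDiff (δ : ℂ))^[k] φ) z 1
    simp only [Int.cast_one, mul_one, one_mul] at h2
    rw [h2, ih] at this
    exact this.trans (by ring)

lemma norm_exp_sub_one_sq (p : ℝ) :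
    ‖Complex.exp (((-p : ℝ) : ℂ) * I) - 1‖ ^ 2 = 2 * (1 - Real.cos p) := by
  rw [Complex.sq_norm, normSq_apply]
  simp only [sub_re, sub_im, one_re, one_im, exp_ofReal_mul_I_re, exp_ofReal_mul_I_im,
    Real.cos_neg, Real.sin_neg]
  linear_combination Real.sin_sq_add_cos_sq p

lemma Etr_iter_bound {R M : ℝ} (hR : 0 ≤ R) {φ : ℂ → ℝ} (hφ : Bd R φ) {k : ℕ} (hk : k ≤ 4)
    (hs : ContDiff ℝ k φ) (hM : ∀ x, ‖iteratedFDeriv ℝ k φ x‖ ≤ M) {δ : ℝ} (hδ : 0 < δ)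
    (hδ1 : δ ≤ 1) {h : ℂ} (hh : ‖h‖ ≤ 2 * δ) {z : ℝ × ℝ} (z0 : 0 ≤ z.1) (z1 : z.1 ≤ 1) :
    ‖Etr δ ((fwdDiff h)^[k] φ) z‖ ≤ (2 * (R + 8) + 3) * (R + 8 + 1) * (M * (2 * δ) ^ k) / δ ^ 2 := by
  have M0 : 0 ≤ M := (norm_nonneg _).trans (hM 0)
  apply Etr_bound hδ hδ1 (by linarith) _ _ z0 z1
  · refine (hφ.iter h k).mono ?_
    have : (k : ℝ) ≤ 4 := by exact_mod_cast hk
    have := mul_le_mul this hh (norm_nonneg _) (by norm_num)
    linarith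
  · intro w
    refine (fwdDiff_bound h k φ M hs hM w).trans ?_
    exact mul_le_mul_of_nonneg_left (pow_le_pow_left₀ (norm_nonneg _) hh k) M0

/-- uniform bounds for the transform of a sampled smooth function -/
theorem Etr_decay {φ : ℂ → ℝ} (hs : ContDiff ℝ 4 φ) (hc : HasCompactSupport φ) (hu : Up φ) :
    ∃ C : ℝ, ∀ δ : ℝ, 0 < δ → δ ≤ 1 → ∀ z : ℝ × ℝ, 0 ≤ z.1 → z.1 ≤ 1 →
      ((1 - z.1) ^ 2 + 2 * (1 - Real.cos z.2)) * ‖Etr δ φ z‖ ≤ C ∧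
      ((1 - z.1) ^ 2 + 2 * (1 - Real.cos z.2)) ^ 2 * ‖Etr δ φ z‖ ≤ C * δ ^ 2 := by
  obtain ⟨R, hR, hφ⟩ := hc.exists_pos_le_norm
  have hs2 : ContDiff ℝ (2 : ℕ) φ := hs.of_le (by norm_num)
  have hs4 : ContDiff ℝ (4 : ℕ) φ := hs
  obtain ⟨M2, hM2⟩ := (hs2.continuous_iteratedFDeriv').bounded_above_of_compact_support
    (hc.iteratedFDeriv (𝕜 := ℝ) 2)
  obtain ⟨M4, hM4⟩ := (hs4.continuous_iteratedFDeriv').bounded_above_of_compact_support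
    (hc.iteratedFDeriv (𝕜 := ℝ) 4)
  have p2 : 0 ≤ M2 := (norm_nonneg _).trans (hM2 0)
  have p4 : 0 ≤ M4 := (norm_nonneg _).trans (hM4 0)
  set K := (2 * (R + 8) + 3) * (R + 8 + 1) with hK
  have K0 : 0 ≤ K := by positivity
  refine ⟨8 * (K * M2) + 64 * (K * M4), fun δ hδ hδ1 z z0 z1 => ?_⟩
  have hδn : ‖(δ : ℂ)‖ ≤ 2 * δ := by
    rw [norm_real, Real.norm_of_nonneg hδ.le]; linarith
  have a1 := Etr_iter_bound hR.le hφ (by norm_num) hs2 hM2 hδ hδ1 (norm_dn hδ) z0 z1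
  have a2 := Etr_iter_bound hR.le hφ (by norm_num) hs2 hM2 hδ hδ1 hδn z0 z1
  have a3 := Etr_iter_bound hR.le hφ (by norm_num) hs4 hM4 hδ hδ1 (norm_dn hδ) z0 z1
  have a4 := Etr_iter_bound hR.le hφ (by norm_num) hs4 hM4 hδ hδ1 hδn z0 z1
  have n1 : ‖(z.1 : ℂ) - 1‖ = 1 - z.1 := by
    rw [norm_sub_rev, ← ofReal_one, ← ofReal_sub, norm_real, Real.norm_of_nonneg (by linarith)]
  have n2 := norm_exp_sub_one_sq z.2
  have n4 : ‖Complex.exp (((-z.2 : ℝ) : ℂ) * I) - 1‖ ^ 4 = (2 * (1 - Real.cos z.2)) ^ 2 := by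
    rw [← n2]; ring
  rw [Etr_iter_t hδ hφ hu, norm_mul, norm_pow, n1, ← hK] at a1 a3
  rw [Etr_iter_s hδ hφ, norm_mul, norm_pow, ← hK] at a2 a4
  rw [n2] at a2
  rw [n4] at a4
  have e2 : K * (M2 * (2 * δ) ^ 2) / δ ^ 2 = 4 * (K * M2) := by field_simp; ring
  have e4 : K * (M4 * (2 * δ) ^ 4) / δ ^ 2 = 16 * (K * M4 * δ ^ 2) := by field_simp; ring
  rw [e2] at a1 a2
  rw [e4] at a3 a4
  have q2 : 0 ≤ K * M2 := by positivity
  have q4 : 0 ≤ K * M4 := by positivity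
  have q5 : 0 ≤ K * M2 * δ ^ 2 := by positivity
  constructor
  · linarith only [a1, a2, q4]
  · have := mul_nonneg (sq_nonneg ((1 - z.1) ^ 2 - 2 * (1 - Real.cos z.2)))
      (norm_nonneg (Etr δ φ z))
    linarith only [a3, a4, q5, this]

end Vale.P153.Spec
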