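import Vale.Agent.P153.Spec.Defs

/-! The logarithmic kernel coming from the 60 degree symmetry and its lower bound. -/

namespace Vale.P153.Spec

open Filter Topology
open scoped BigOperators

lemma hasSum_log {r : ℝ} (h0 : 0 ≤ r) (h1 : r < 1) (q : ℝ) :
    HasSum (fun n : ℕ => 2 * (r ^ n * Real.cos (n * q) / n))
      (-Real.log ((1 - r) ^ 2 + 2 * r * (1 - Real.cos q))) := by
  have hz : ‖(r : ℂ) * Complex.exp (q * Complex.I)‖ < 1 := by
    rw [norm_mul, Complex.norm_exp_ofReal_mul_I, mul_one, Complex.norm_real,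
      Real.norm_of_nonneg h0]
    exact h1
  have h := (Complex.hasSum_re (Complex.hasSum_taylorSeries_neg_log hz)).mul_left 2
  have e1 : ∀ n : ℕ, (((r : ℂ) * Complex.exp (q * Complex.I)) ^ n / n).re =
      r ^ n * Real.cos (n * q) / n := by
    intro n
    rw [mul_pow, ← Complex.exp_nat_mul, ← Complex.ofReal_natCast, Complex.div_ofReal_re,
      ← Complex.ofReal_pow, Complex.re_ofReal_mul, ← mul_assoc, ← Complex.ofReal_mul,
      Complex.exp_ofReal_mul_I_re]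
  have e2 : 2 * (-Complex.log (1 - (r : ℂ) * Complex.exp (q * Complex.I))).re =
      -Real.log ((1 - r) ^ 2 + 2 * r * (1 - Real.cos q)) := by
    rw [Complex.neg_re, Complex.log_re]
    have : (1 - r) ^ 2 + 2 * r * (1 - Real.cos q) =
        ‖1 - (r : ℂ) * Complex.exp (q * Complex.I)‖ ^ 2 := by
      rw [Complex.sq_norm, Complex.normSq_apply]
      simp only [Complex.sub_re, Complex.one_re, Complex.re_ofReal_mul, Complex.sub_im,
        Complex.one_im, Complex.im_ofReal_mul, Complex.exp_ofReal_mul_I_re,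
        Complex.exp_ofReal_mul_I_im]
      have := Real.sin_sq_add_cos_sq q
      linear_combination (-r ^ 2) * this
    rw [this, Real.log_pow]
    push_cast
    ring
  simp only [e1, e2] at h
  exact h

/-- the logarithmic kernel -/
noncomputable def K2 (ρ : ℝ) (z : ℝ × ℝ) : ℝ :=
  Real.log ((1 - ρ * z.1) ^ 2 + 2 * (ρ * z.1) * (1 - Real.cos (3 * z.2))) +
    Real.log ((1 - ρ * z.1) ^ 2 + 2 * (ρ * z.1) * (1 - Real.cos z.2)) -
    Real.log ((1 - ρ * z.1 ^ 2) ^ 2) -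
    Real.log ((1 - ρ) ^ 2 + 2 * ρ * (1 - Real.cos (2 * z.2)))

/-- the symmetry defect at scale `n` -/
noncomputable def Fn (n : ℕ) (z : ℝ × ℝ) : ℝ :=
  z.1 ^ (2 * n) - z.1 ^ n * Real.cos (3 * n * z.2) - z.1 ^ n * Real.cos (n * z.2) +
    Real.cos (2 * n * z.2)

lemma hasSum_K2 {ρ : ℝ} (h0 : 0 ≤ ρ) (h1 : ρ < 1) {z : ℝ × ℝ} (z0 : 0 ≤ z.1) (z1 : z.1 ≤ 1) :
    HasSum (fun n : ℕ => 2 * (ρ ^ n / n) * Fn n z) (K2 ρ z) := by
  have a0 : 0 ≤ ρ * z.1 := mul_nonneg h0 z0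
  have a1 : ρ * z.1 < 1 := (mul_le_of_le_one_right h0 z1).trans_lt h1
  have b0 : 0 ≤ ρ * z.1 ^ 2 := by positivity
  have b1 : ρ * z.1 ^ 2 < 1 := (mul_le_of_le_one_right h0 (pow_le_one₀ z0 z1)).trans_lt h1
  have h := (((hasSum_log b0 b1 0).sub (hasSum_log a0 a1 (3 * z.2))).sub
    (hasSum_log a0 a1 z.2)).add (hasSum_log h0 h1 (2 * z.2))
  have e1 : K2 ρ z = -Real.log ((1 - ρ * z.1 ^ 2) ^ 2 + 2 * (ρ * z.1 ^ 2) * (1 - Real.cos 0)) -
      -Real.log ((1 - ρ * z.1) ^ 2 + 2 * (ρ * z.1) * (1 - Real.cos (3 * z.2))) -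
      -Real.log ((1 - ρ * z.1) ^ 2 + 2 * (ρ * z.1) * (1 - Real.cos z.2)) +
      -Real.log ((1 - ρ) ^ 2 + 2 * ρ * (1 - Real.cos (2 * z.2))) := by
    simp only [K2, Real.cos_zero, sub_self, mul_zero, add_zero]
    ring
  rw [e1]
  refine h.congr_fun ?_
  intro n
  have c1 : (n : ℝ) * (3 * z.2) = 3 * n * z.2 := by ring
  have c2 : (n : ℝ) * (2 * z.2) = 2 * n * z.2 := by ring
  simp only [Fn, mul_zero, Real.cos_zero, c1, c2]
  ring

lemma poly_id (a x v : ℝ) : ((a + x) ^ 2 + 9 * v) * ((a + x) ^ 2 + v) =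
    (a + 2 * x) ^ 2 * (a ^ 2 + 4 * v) + (x ^ 2 - 3 * v) ^ 2 +
      (4 * a * x ^ 3 + 2 * a ^ 2 * x ^ 2 + 6 * a ^ 2 * v + 4 * a * x * v) := by ring

lemma g_le_nine {a x v : ℝ} (hv : 0 ≤ v) :
    (x ^ 2 - 3 * v) ^ 2 / (a ^ 2 + x ^ 2 + v) ^ 2 ≤ 9 := by
  apply div_le_of_le_mul₀ (by positivity) (by norm_num)
  have h : |x ^ 2 - 3 * v| ≤ 3 * (a ^ 2 + x ^ 2 + v) := by
    rw [abs_le]
    constructor <;> nlinarith [sq_nonneg a, sq_nonneg x]
  have := pow_le_pow_left₀ (abs_nonneg _) h 2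
  rw [sq_abs] at this
  linarith

lemma log_caseA {a x v κ A B C E : ℝ} (ha : 0 < a) (hx : 0 ≤ x) (hv : 0 ≤ v) (hκ : 2 / 9 ≤ κ)
    (hκ1 : κ ≤ 1) (hA : κ * ((a + x) ^ 2 + 9 * v) ≤ A) (hB : κ * ((a + x) ^ 2 + v) ≤ B)
    (hC0 : 0 < C) (hC : C ≤ (a + 2 * x) ^ 2) (hE0 : 0 < E) (hE : E ≤ a ^ 2 + 4 * v) :
    (x ^ 2 - 3 * v) ^ 2 / (a ^ 2 + x ^ 2 + v) ^ 2 ≤
      40 * (Real.log A + Real.log B - Real.log C - Real.log E) + 360 * (1 - κ) := by
  have hκ0 : 0 < κ := by linarith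
  have p1 : 0 < (a + x) ^ 2 + 9 * v := by positivity
  have p2 : 0 < (a + x) ^ 2 + v := by positivity
  have p3 : 0 < (a + 2 * x) ^ 2 := by positivity
  have p4 : 0 < a ^ 2 + 4 * v := by positivity
  have p5 : 0 < (a ^ 2 + x ^ 2 + v) ^ 2 := by positivity
  have l1 := Real.log_le_log (mul_pos hκ0 p1) hA
  have l2 := Real.log_le_log (mul_pos hκ0 p2) hB
  have l3 := Real.log_le_log hC0 hC
  have l4 := Real.log_le_log hE0 hE
  rw [Real.log_mul hκ0.ne' p1.ne'] at l1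
  rw [Real.log_mul hκ0.ne' p2.ne'] at l2
  set g := (x ^ 2 - 3 * v) ^ 2 / (a ^ 2 + x ^ 2 + v) ^ 2 with hg
  have g0 : 0 ≤ g := by positivity
  have g9 : g ≤ 9 := g_le_nine hv
  have hEE : (a + 2 * x) ^ 2 * (a ^ 2 + 4 * v) ≤ 20 * (a ^ 2 + x ^ 2 + v) ^ 2 := by
    have q1 : (a + 2 * x) ^ 2 ≤ 5 * (a ^ 2 + x ^ 2 + v) := by nlinarith [sq_nonneg (2 * a - x)]
    have q2 : a ^ 2 + 4 * v ≤ 4 * (a ^ 2 + x ^ 2 + v) := by nlinarith [sq_nonneg a, sq_nonneg x]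
    calc _ ≤ (5 * (a ^ 2 + x ^ 2 + v)) * (4 * (a ^ 2 + x ^ 2 + v)) :=
          mul_le_mul q1 q2 p4.le (by positivity)
      _ = _ := by ring
  have hmain : (a + 2 * x) ^ 2 * (a ^ 2 + 4 * v) * (1 + g / 20) ≤
      ((a + x) ^ 2 + 9 * v) * ((a + x) ^ 2 + v) := by
    rw [poly_id]
    have r1 : (a + 2 * x) ^ 2 * (a ^ 2 + 4 * v) * (g / 20) ≤ (x ^ 2 - 3 * v) ^ 2 := by
      calc _ ≤ 20 * (a ^ 2 + x ^ 2 + v) ^ 2 * (g / 20) :=
            mul_le_mul_of_nonneg_right hEE (by positivity)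
        _ = _ := by rw [hg]; field_simp
    have r2 : 0 ≤ 4 * a * x ^ 3 + 2 * a ^ 2 * x ^ 2 + 6 * a ^ 2 * v + 4 * a * x * v := by
      positivity
    rw [mul_add, mul_one]
    linarith
  have l5 := Real.log_le_log (by positivity) hmain
  rw [Real.log_mul (by positivity) (by positivity), Real.log_mul p3.ne' p4.ne',
    Real.log_mul p1.ne' p2.ne'] at l5
  have l6 := Real.one_sub_inv_le_log_of_pos (x := 1 + g / 20) (by positivity)
  have l7 : g / 40 ≤ 1 - (1 + g / 20)⁻¹ := by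
    have : (1 + g / 20)⁻¹ ≤ 1 - g / 40 := by
      rw [inv_le_comm₀ (by positivity) (by linarith), inv_eq_one_div, div_le_iff₀ (by linarith)]
      nlinarith
    linarith
  have l8 := Real.one_sub_inv_le_log_of_pos hκ0
  have l9 : -(9 / 2) * (1 - κ) ≤ 1 - κ⁻¹ := by
    have : κ⁻¹ ≤ 1 + 9 / 2 * (1 - κ) := by
      rw [inv_eq_one_div, div_le_iff₀ hκ0]
      nlinarith
    linarith
  linarith

lemma log_caseB {A B C E : ℝ} (hC0 : 0 < C) (hA : C / 4 ≤ A) (hB : 1 / 4 ≤ B) (hE0 : 0 < E)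
    (hE : E ≤ 4) : -6 ≤ Real.log A + Real.log B - Real.log C - Real.log E := by
  have l1 := Real.log_le_log (by positivity) hA
  have l2 := Real.log_le_log (by positivity) hB
  have l3 := Real.log_le_log hE0 hE
  rw [Real.log_div hC0.ne' (by norm_num)] at l1
  rw [Real.log_div (by norm_num) (by norm_num), Real.log_one] at l2
  have l4 : Real.log 4 ≤ 2 := by
    have : (4 : ℝ) = 2 ^ 2 := by norm_num
    rw [this, Real.log_pow]
    have := Real.log_le_sub_one_of_pos (x := 2) (by norm_num)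
    push_cast
    linarith
  linarith

/-- regularised infrared defect -/
noncomputable def grho (ρ : ℝ) (z : ℝ × ℝ) : ℝ :=
  ((ρ * (1 - z.1)) ^ 2 - 3 * (ρ * (2 * (1 - Real.cos z.2)))) ^ 2 /
    ((1 - ρ) ^ 2 + (ρ * (1 - z.1)) ^ 2 + ρ * (2 * (1 - Real.cos z.2))) ^ 2

theorem grho_le {ρ : ℝ} (h0 : 0 ≤ ρ) (h1 : ρ < 1) {z : ℝ × ℝ} (z0 : 0 ≤ z.1) (z1 : z.1 ≤ 1) :
    grho ρ z ≤ 40 * K2 ρ z + 500 * D z := by
  obtain ⟨l, p⟩ := z
  simp only [grho, K2, D] at *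
  have c1 := Real.cos_le_one p
  have c2 := Real.neg_one_le_cos p
  rw [Real.cos_three_mul, Real.cos_two_mul]
  obtain ⟨u, hu⟩ : ∃ u, Real.cos p = 1 - u / 2 := ⟨2 * (1 - Real.cos p), by ring⟩
  rw [hu] at c1 c2 ⊢
  have u0 : 0 ≤ u := by linarith
  have u4 : u ≤ 4 := by linarith
  have e0 : 2 * (1 - (1 - u / 2)) = u := by ring
  rw [e0]
  have ha : 0 < 1 - ρ := by linarith
  have hx : 0 ≤ ρ * (1 - l) := mul_nonneg h0 (by linarith)
  have hv : 0 ≤ ρ * u := mul_nonneg h0 u0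
  have r0 : 0 ≤ ρ * l := mul_nonneg h0 z0
  have r1 : ρ * l ≤ l := mul_le_of_le_one_left z0 h1.le
  have r2 : ρ * l ≤ ρ := mul_le_of_le_one_right h0 z1
  have s0 : 0 ≤ ρ * l ^ 2 := by positivity
  have s1 : ρ * l ^ 2 ≤ ρ := mul_le_of_le_one_right h0 (pow_le_one₀ z0 z1)
  have hC0 : 0 < (1 - ρ * l ^ 2) ^ 2 := by
    have : 0 < 1 - ρ * l ^ 2 := by linarith
    positivity
  have w0 : 0 ≤ ρ * u * (4 - u) := mul_nonneg hv (by linarith)
  have eE : (1 - ρ) ^ 2 + 2 * ρ * (1 - (2 * (1 - u / 2) ^ 2 - 1)) =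
      (1 - ρ) ^ 2 + ρ * u * (4 - u) := by ring
  have eA : (1 - ρ * l) ^ 2 + 2 * (ρ * l) * (1 - (4 * (1 - u / 2) ^ 3 - 3 * (1 - u / 2))) =
      (1 - ρ * l) ^ 2 + l * (3 - u) ^ 2 * (ρ * u) := by ring
  have eB : (1 - ρ * l) ^ 2 + 2 * (ρ * l) * (1 - (1 - u / 2)) =
      (1 - ρ * l) ^ 2 + l * (ρ * u) := by ring
  rw [eE, eA, eB]
  have hE0 : 0 < (1 - ρ) ^ 2 + ρ * u * (4 - u) := by positivity
  by_cases hc : 1 / 2 ≤ l ∧ u ≤ 1
  · obtain ⟨hl, hu1⟩ := hc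
    have k1 : (1 - u / 3) ^ 2 ≤ 1 :=
      pow_le_one₀ (by linarith only [hu1]) (by linarith only [u0])
    have k2 : (2 / 3) ^ 2 ≤ (1 - u / 3) ^ 2 :=
      pow_le_pow_left₀ (by norm_num) (by linarith only [hu1]) 2
    have k3 : l * (1 - u / 3) ^ 2 ≤ l := mul_le_of_le_one_right z0 k1
    have k4 : 2 / 9 ≤ l * (1 - u / 3) ^ 2 := by
      have := mul_le_mul hl k2 (by norm_num) z0
      linarith only [this]
    have ex : 1 - ρ + ρ * (1 - l) = 1 - ρ * l := by ring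
    have n1 := mul_le_of_le_one_left (sq_nonneg (1 - ρ * l)) (k3.trans z1)
    have m1 : l * (1 - u / 3) ^ 2 * ((1 - ρ + ρ * (1 - l)) ^ 2 + 9 * (ρ * u)) ≤
        (1 - ρ * l) ^ 2 + l * (3 - u) ^ 2 * (ρ * u) := by
      rw [ex]
      linarith only [n1]
    have m2 : l * (1 - u / 3) ^ 2 * ((1 - ρ + ρ * (1 - l)) ^ 2 + ρ * u) ≤
        (1 - ρ * l) ^ 2 + l * (ρ * u) := by
      rw [ex]
      have := mul_le_mul_of_nonneg_right k3 hv
      linarith only [n1, this]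
    have m3 : (1 - ρ * l ^ 2) ^ 2 ≤ (1 - ρ + 2 * (ρ * (1 - l))) ^ 2 := by
      apply pow_le_pow_left₀ (by linarith only [s1, h1])
      have : 0 ≤ ρ * (1 - l) ^ 2 := by positivity
      linarith only [this]
    have m4 : (1 - ρ) ^ 2 + ρ * u * (4 - u) ≤ (1 - ρ) ^ 2 + 4 * (ρ * u) := by
      have : 0 ≤ ρ * u * u := by positivity
      linarith only [this]
    have := log_caseA ha hx hv k4 (k3.trans z1) m1 m2 hC0 m3 hE0 m4
    have k5 : 1 - l * (1 - u / 3) ^ 2 ≤ (1 - l) + 2 * u / 3 := by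
      have : l * (1 - (1 - u / 3) ^ 2) ≤ 1 - (1 - u / 3) ^ 2 :=
        mul_le_of_le_one_left (by linarith only [k1]) z1
      linarith only [this, sq_nonneg u]
    linarith only [this, k5, z1, u0]
  · have hB : 1 / 4 ≤ (1 - ρ * l) ^ 2 + l * (ρ * u) := by
      rcases not_and_or.1 hc with h | h
      · have t1 : 0 ≤ l * (ρ * u) := mul_nonneg z0 hv
        have t2 : (1 / 2) ^ 2 ≤ (1 - ρ * l) ^ 2 :=
          pow_le_pow_left₀ (by norm_num) (by linarith only [r1, not_le.1 h]) 2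
        linarith only [t1, t2]
      · have : ρ * l * 1 ≤ ρ * l * u := mul_le_mul_of_nonneg_left (not_le.1 h).le r0
        linarith only [this, sq_nonneg (ρ * l - 1 / 2)]
    have hA : (1 - ρ * l ^ 2) ^ 2 / 4 ≤ (1 - ρ * l) ^ 2 + l * (3 - u) ^ 2 * (ρ * u) := by
      have t1 : 0 ≤ l * (3 - u) ^ 2 * (ρ * u) := by positivity
      have t2 : 1 - ρ * l ^ 2 ≤ 2 * (1 - ρ * l) := by
        have : ρ * (ρ * l ^ 2) ≤ ρ * l ^ 2 := mul_le_of_le_one_left s0 h1.le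
        linarith only [this, sq_nonneg (1 - ρ * l)]
      have t3 := pow_le_pow_left₀ (by linarith only [s1, h1]) t2 2
      linarith only [t1, t3]
    have hE : (1 - ρ) ^ 2 + ρ * u * (4 - u) ≤ 4 := by
      have t1 : ρ * (u * (4 - u)) ≤ ρ * 4 :=
        mul_le_mul_of_nonneg_left (by linarith only [sq_nonneg (u - 2)]) h0
      have t2 : ρ * ρ ≤ 1 := mul_le_one₀ h1.le h0 h1.le
      linarith only [t1, t2, h1]
    have := log_caseB hC0 hA hB hE0 hE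
    have g9 := g_le_nine (a := 1 - ρ) (x := ρ * (1 - l)) hv
    have hD : 1 / 2 ≤ 1 - l + (1 - (1 - u / 2)) := by
      rcases not_and_or.1 hc with h | h
      · linarith only [not_le.1 h, u0]
      · linarith only [not_le.1 h, z1]
    linarith only [this, g9, hD]

end Vale.P153.Spec
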