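import Vale.Agent.P153.Spec.Rep
import Vale.Agent.P153.Spec.Kineq

/-! The infrared defect is integrable for the spectral measure. -/

namespace Vale.P153.Spec

open MeasureTheory Filter Topology
open scoped BigOperators

/-- the kernel of the representation -/
noncomputable def kern (t n : ℕ) (z : ℝ × ℝ) : ℝ := (1 - z.1 ^ t * Real.cos (n * z.2)) / D z

lemma measurable_D : Measurable D := by unfold D; fun_prop

variable {W : ℤ × ℕ → ℝ} {m : Measure (ℝ × ℝ)}

lemma kern_integrable (hm : Represents W m) (t n : ℕ) : Integrable (kern t n) m := by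
  have := hm.fin
  refine Integrable.of_bound ?_ (t + (n : ℝ) ^ 2) ?_
  · apply Measurable.aestronglyMeasurable
    have := measurable_D
    unfold kern
    fun_prop
  · filter_upwards [hm.supp] with z hz
    exact kern_div_bound hz.1 hz.2.1 t n

lemma kern_integral (hm : Represents W m) (t n : ℕ) : ∫ z, kern t n z ∂m = W (n, t) / 2 := by
  rw [hm.eq]
  simp [kern]

lemma Fn_div (n : ℕ) (z : ℝ × ℝ) :
    Fn n z / D z = kern n (3 * n) z - kern (2 * n) 0 z + (kern n n z - kern 0 (2 * n) z) := by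
  simp only [Fn, kern]
  push_cast
  simp only [zero_mul, Real.cos_zero]
  ring

lemma Fn_integral (hW : RectRP W) (hm : Represents W m) (n : ℕ) :
    ∫ z, Fn n z / D z ∂m = 0 := by
  simp only [Fn_div]
  have i := kern_integrable hm
  rw [integral_add (f := fun z => kern n (3 * n) z - kern (2 * n) 0 z)
    (g := fun z => kern n n z - kern 0 (2 * n) z) ((i _ _).sub (i _ _)) ((i _ _).sub (i _ _)),
    integral_sub (i _ _) (i _ _), integral_sub (i _ _) (i _ _)]
  simp only [kern_integral hm]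
  have h1 := hW.sym1 n
  have h2 := hW.sym2 n
  push_cast
  linarith

lemma Fn_bound {ρ : ℝ} (h0 : 0 ≤ ρ) {z : ℝ × ℝ} (z0 : 0 ≤ z.1) (z1 : z.1 ≤ 1) (n : ℕ) :
    ‖2 * (ρ ^ n / n) * Fn n z / D z‖ ≤ 36 * ((n : ℝ) ^ 1 * ρ ^ n) := by
  rcases Nat.eq_zero_or_pos n with rfl | hn
  · simp
  have hn' : (1 : ℝ) ≤ n := by exact_mod_cast hn
  have a1 := kern_div_bound z0 z1 n (3 * n)
  have a2 := kern_div_bound z0 z1 (2 * n) 0
  have a3 := kern_div_bound z0 z1 n n
  have a4 := kern_div_bound z0 z1 0 (2 * n)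
  have b : ‖Fn n z / D z‖ ≤ 18 * (n : ℝ) ^ 2 := by
    rw [Fn_div]
    have c1 := norm_add_le (kern n (3 * n) z - kern (2 * n) 0 z) (kern n n z - kern 0 (2 * n) z)
    have c2 := norm_sub_le (kern n (3 * n) z) (kern (2 * n) 0 z)
    have c3 := norm_sub_le (kern n n z) (kern 0 (2 * n) z)
    have c4 : (n : ℝ) ≤ (n : ℝ) ^ 2 := by nlinarith
    simp only [kern] at c1 c2 c3 ⊢
    push_cast at a1 a2 a3 a4 c1 c2 c3 ⊢
    linarith
  rw [mul_div_assoc, norm_mul, Real.norm_of_nonneg (by positivity)]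
  calc _ ≤ 2 * (ρ ^ n / n) * (18 * (n : ℝ) ^ 2) := mul_le_mul_of_nonneg_left b (by positivity)
    _ = _ := by field_simp; ring

lemma measurable_K2 (ρ : ℝ) : Measurable (K2 ρ) := by
  unfold K2
  refine ((Measurable.add ?_ ?_).sub ?_).sub ?_ <;> apply Real.measurable_log.comp <;> fun_prop

lemma measurable_Fn (n : ℕ) : Measurable (Fn n) := by
  apply Continuous.measurable
  unfold Fn
  fun_prop

lemma K2_integral (hW : RectRP W) (hm : Represents W m) {ρ : ℝ} (h0 : 0 ≤ ρ) (h1 : ρ < 1) :
    Integrable (fun z => K2 ρ z / D z) m ∧ ∫ z, K2 ρ z / D z ∂m = 0 := by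
  have := hm.fin
  have hs0 : Summable fun n : ℕ => (n : ℝ) ^ 1 * ρ ^ n :=
    summable_pow_mul_geometric_of_norm_lt_one 1 (r := ρ) (by rwa [Real.norm_of_nonneg h0])
  have hs : Summable fun n : ℕ => 36 * ((n : ℝ) ^ 1 * ρ ^ n) := hs0.mul_left 36
  have hD := measurable_D
  constructor
  · obtain ⟨B, hB⟩ := hs
    refine Integrable.of_bound ?_ B ?_
    · exact ((measurable_K2 ρ).div hD).aestronglyMeasurable
    · filter_upwards [hm.supp] with z hz
      have h3 := (hasSum_K2 h0 h1 hz.1 hz.2.1).div_const (D z)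
      exact HasSum.norm_le_of_bounded h3 hB (Fn_bound h0 hz.1 hz.2.1)
  · have := hasSum_integral_of_dominated_convergence (μ := m)
      (F := fun (n : ℕ) z => 2 * (ρ ^ n / n) * Fn n z / D z) (f := fun z => K2 ρ z / D z)
      (fun n _ => 36 * ((n : ℝ) ^ 1 * ρ ^ n)) (fun n =>
        (((measurable_Fn n).const_mul _).div hD).aestronglyMeasurable) (fun n => by
        filter_upwards [hm.supp] with z hz
        exact Fn_bound h0 hz.1 hz.2.1 n) (Eventually.of_forall fun _ => hs)
      (integrable_const _) (by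
        filter_upwards [hm.supp] with z hz
        exact (hasSum_K2 h0 h1 hz.1 hz.2.1).div_const (D z))
    simp only [mul_div_assoc, integral_const_mul, Fn_integral hW hm, mul_zero] at this
    exact this.unique hasSum_zero

lemma grho_integral (hW : RectRP W) (hm : Represents W m) {ρ : ℝ} (h0 : 0 ≤ ρ) (h1 : ρ < 1) :
    ∫⁻ z, ‖grho ρ z / D z‖ₑ ∂m ≤ ENNReal.ofReal (500 * m.real Set.univ) := by
  have := hm.fin
  obtain ⟨hi, he⟩ := K2_integral hW hm h0 h1
  have hle : ∀ᵐ z ∂m, 0 ≤ grho ρ z / D z ∧ grho ρ z / D z ≤ 40 * (K2 ρ z / D z) + 500 := by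
    filter_upwards [hm.supp] with z hz
    have g0 : 0 ≤ grho ρ z := by unfold grho; positivity
    refine ⟨div_nonneg g0 hz.2.2.le, ?_⟩
    have := div_le_div_of_nonneg_right (grho_le h0 h1 hz.1 hz.2.1) hz.2.2.le
    refine this.trans (le_of_eq ?_)
    have := hz.2.2.ne'
    field_simp
  have hi2 : Integrable (fun z => 40 * (K2 ρ z / D z) + 500) m :=
    (hi.const_mul 40).add (integrable_const _)
  have e : ∫ z, 40 * (K2 ρ z / D z) + 500 ∂m = 500 * m.real Set.univ := by
    rw [integral_add (hi.const_mul 40) (integrable_const _), integral_const_mul, he,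
      integral_const, smul_eq_mul]
    ring
  rw [← e, ofReal_integral_eq_lintegral_ofReal hi2 (by
    filter_upwards [hle] with z hz
    exact hz.1.trans hz.2)]
  apply lintegral_mono_ae
  filter_upwards [hle] with z hz
  rw [Real.enorm_of_nonneg hz.1]
  exact ENNReal.ofReal_le_ofReal hz.2

lemma den_pos {z : ℝ × ℝ} (z1 : z.1 ≤ 1) (hD : 0 < D z) :
    0 < (1 - z.1) ^ 2 + 2 * (1 - Real.cos z.2) := by
  have c := Real.cos_le_one z.2
  unfold D at hD
  rcases lt_or_eq_of_le z1 with h | h
  · have : 0 < (1 - z.1) ^ 2 := by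
      have : 0 < 1 - z.1 := by linarith
      positivity
    linarith
  · have := sq_nonneg (1 - z.1)
    linarith

theorem integrable_gfun (hW : RectRP W) (hm : Represents W m) :
    Integrable (fun z => gfun z / D z) m := by
  have hD := measurable_D
  let ρ : ℕ → ℝ := fun k => 1 - 1 / ((k : ℝ) + 1)
  have hρ : Tendsto ρ atTop (𝓝 1) := by
    have := tendsto_one_div_add_atTop_nhds_zero_nat.const_sub (1 : ℝ)
    rwa [sub_zero] at this
  have hρ0 : ∀ k, 0 ≤ ρ k := fun k => by
    have : 1 / ((k : ℝ) + 1) ≤ 1 := by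
      rw [div_le_one (by positivity)]
      have : (0 : ℝ) ≤ k := by positivity
      linarith
    simp only [ρ]
    linarith
  have hρ1 : ∀ k, ρ k < 1 := fun k => by
    have : 0 < 1 / ((k : ℝ) + 1) := by positivity
    simp only [ρ]
    linarith
  have hlim : ∀ᵐ z ∂m, Tendsto (fun k => grho (ρ k) z / D z) atTop (𝓝 (gfun z / D z)) := by
    filter_upwards [hm.supp] with z hz
    have hp := den_pos hz.2.1 hz.2.2
    apply Tendsto.div_const
    have hc : ContinuousAt (fun r => grho r z) 1 := by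
      unfold grho
      apply ContinuousAt.div (by fun_prop) (by fun_prop)
      simpa using hp.ne'
    have e : grho 1 z = gfun z := by
      unfold grho gfun
      congr 1 <;> ring
    rw [← e]
    exact hc.tendsto.comp hρ
  have hmeas : ∀ k, Measurable fun z => grho (ρ k) z / D z := fun k => by
    unfold grho
    fun_prop
  refine ⟨aestronglyMeasurable_of_tendsto_ae _ (fun k => (hmeas k).aestronglyMeasurable) hlim, ?_⟩
  have h1 : ∫⁻ z, ‖gfun z / D z‖ₑ ∂m ≤
      liminf (fun k => ∫⁻ z, ‖grho (ρ k) z / D z‖ₑ ∂m) atTop := by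
    refine le_trans (le_of_eq ?_) (lintegral_liminf_le' fun k => (hmeas k).aemeasurable.enorm)
    apply lintegral_congr_ae
    filter_upwards [hlim] with z hz using hz.enorm.liminf_eq.symm
  refine h1.trans_lt (lt_of_le_of_lt ?_ (ENNReal.ofReal_lt_top (r := 500 * m.real Set.univ)))
  exact liminf_le_of_frequently_le' (Frequently.of_forall fun k =>
    grho_integral hW hm (hρ0 k) (hρ1 k))

end Vale.P153.Spec
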