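import Mathlib

/-! Two-dimensional Hausdorff moment theorem, for a functional on a commutative algebra. -/

namespace Vale.P153.Spec

open MeasureTheory Filter Topology
open scoped BigOperators NNReal ENNReal

/-- normalised falling factorial -/
noncomputable def rr (N a j : ℕ) : ℝ := (j.choose a : ℝ) / (N.choose a : ℝ)

lemma rr_succ {N a : ℕ} (j : ℕ) (h : a < N) :
    rr N (a + 1) j = rr N a j * (((j : ℝ) - a) / ((N : ℝ) - a)) := by
  have h1 : ∀ n : ℕ, (n.choose (a + 1) : ℝ) = n.choose a * ((n : ℝ) - a) / (a + 1) := by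
    intro n
    have ha : ((a : ℝ) + 1) ≠ 0 := by positivity
    rw [eq_div_iff ha]
    rcases le_or_gt a n with hn | hn
    · have := Nat.choose_succ_right_eq n a
      have h2 : ((n.choose (a + 1) * (a + 1) : ℕ) : ℝ) = ((n.choose a * (n - a) : ℕ) : ℝ) := by
        rw [this]
      push_cast [Nat.cast_sub hn] at h2
      exact h2
    · rw [Nat.choose_eq_zero_of_lt hn, Nat.choose_eq_zero_of_lt (by omega)]
      simp
  have hN : (N.choose a : ℝ) ≠ 0 := by
    have := Nat.choose_pos h.le
    positivity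
  have hNa : ((N : ℝ) - a) ≠ 0 := by
    have : (a : ℝ) < N := by exact_mod_cast h
    linarith
  have ha : ((a : ℝ) + 1) ≠ 0 := by positivity
  unfold rr
  rw [h1 j, h1 N]
  field_simp

lemma rr_bounds {N a j : ℕ} (hj : j ≤ N) : 0 ≤ rr N a j ∧ rr N a j ≤ 1 := by
  unfold rr
  refine ⟨by positivity, ?_⟩
  apply div_le_one_of_le₀ _ (by positivity)
  exact_mod_cast Nat.choose_le_choose a hj

lemma rr_approx {N j : ℕ} (hj : j ≤ N) : ∀ a : ℕ, a < N →
    |rr N a j - ((j : ℝ) / N) ^ a| ≤ (a : ℝ) ^ 2 / ((N : ℝ) - a) := by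
  intro a
  induction a with
  | zero => intro _; simp [rr]
  | succ a ih =>
    intro h
    have h' : a < N := by omega
    have e := ih h'
    have hN : (0 : ℝ) < N := by exact_mod_cast (by omega : 0 < N)
    have hNa : (0 : ℝ) < (N : ℝ) - a := by
      have : (a : ℝ) < N := by exact_mod_cast h'
      linarith
    have hNa1 : (0 : ℝ) < (N : ℝ) - (a + 1 : ℕ) := by
      have : ((a + 1 : ℕ) : ℝ) < N := by exact_mod_cast h
      linarith
    have hjN : (j : ℝ) ≤ N := by exact_mod_cast hj
    have hq0 : (0 : ℝ) ≤ (j : ℝ) / N := by positivity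
    have hq1 : (j : ℝ) / N ≤ 1 := div_le_one_of_le₀ hjN hN.le
    obtain ⟨r0, r1⟩ := rr_bounds (a := a) hj
    rw [rr_succ j h']
    have hd : |((j : ℝ) - a) / ((N : ℝ) - a) - (j : ℝ) / N| ≤ a / ((N : ℝ) - a) := by
      have : ((j : ℝ) - a) / ((N : ℝ) - a) - (j : ℝ) / N
          = -((a / ((N : ℝ) - a)) * (1 - (j : ℝ) / N)) := by
        field_simp
        ring
      rw [this, abs_neg, abs_of_nonneg (by
        apply mul_nonneg (by positivity); linarith)]
      apply mul_le_of_le_one_right (by positivity)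
      linarith
    have hsplit : rr N a j * (((j : ℝ) - a) / ((N : ℝ) - a)) - ((j : ℝ) / N) ^ (a + 1)
        = rr N a j * (((j : ℝ) - a) / ((N : ℝ) - a) - (j : ℝ) / N)
          + (j : ℝ) / N * (rr N a j - ((j : ℝ) / N) ^ a) := by ring
    rw [hsplit]
    have b1 : |rr N a j * (((j : ℝ) - a) / ((N : ℝ) - a) - (j : ℝ) / N)| ≤ a / ((N : ℝ) - a) := by
      rw [abs_mul, abs_of_nonneg r0]
      exact (mul_le_of_le_one_left (abs_nonneg _) r1).trans hd
    have b2 : |(j : ℝ) / N * (rr N a j - ((j : ℝ) / N) ^ a)| ≤ (a : ℝ) ^ 2 / ((N : ℝ) - a) := by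
      rw [abs_mul, abs_of_nonneg hq0]
      exact (mul_le_of_le_one_left (abs_nonneg _) hq1).trans e
    refine (abs_add_le _ _).trans ((add_le_add b1 b2).trans ?_)
    rw [← add_div]
    apply div_le_div₀ (by positivity) _ hNa1
    · push_cast; linarith
    · push_cast
      have : (0 : ℝ) ≤ a := by positivity
      nlinarith

section alg
variable {A : Type*} [CommRing A] [Algebra ℝ A]

/-- Bernstein basis element -/
def bern (x : A) (N j : ℕ) : A := (N.choose j : A) * (x ^ j * (1 - x) ^ (N - j))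

omit [Algebra ℝ A] in
lemma bern_sum (x : A) {N a : ℕ} (h : a ≤ N) :
    ∑ j ∈ Finset.range (N + 1), (j.choose a : A) * bern x N j = (N.choose a : A) * x ^ a := by
  obtain ⟨M, rfl⟩ := Nat.exists_eq_add_of_le h
  have e : a + M + 1 = a + (M + 1) := by ring
  rw [e, Finset.sum_range_add]
  have z : ∑ j ∈ Finset.range a, (j.choose a : A) * bern x (a + M) j = 0 := by
    apply Finset.sum_eq_zero
    intro j hj
    rw [Nat.choose_eq_zero_of_lt (Finset.mem_range.1 hj)]
    simp
  rw [z, zero_add]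
  have hb := add_pow x (1 - x) M
  have h1 : (x + (1 - x)) ^ M = 1 := by simp
  rw [h1] at hb
  calc ∑ j ∈ Finset.range (M + 1), ((a + j).choose a : A) * bern x (a + M) (a + j)
      = ∑ j ∈ Finset.range (M + 1), ((a + M).choose a : A) * x ^ a *
          (x ^ j * (1 - x) ^ (M - j) * (M.choose j : A)) := by
        apply Finset.sum_congr rfl
        intro j hj
        have hj' : j ≤ M := by have := Finset.mem_range.1 hj; omega
        have hc := Nat.choose_mul (n := a + M) (k := a + j) (s := a) (by omega)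
        have e1 : a + M - a = M := by omega
        have e2 : a + j - a = j := by omega
        have e3 : a + M - (a + j) = M - j := by omega
        rw [e1, e2] at hc
        have hc' : (((a + M).choose (a + j) : ℕ) : A) * (((a + j).choose a : ℕ) : A)
            = (((a + M).choose a : ℕ) : A) * ((M.choose j : ℕ) : A) := by
          exact_mod_cast congrArg (fun n : ℕ => (n : A)) hc
        unfold bern
        rw [e3, pow_add]
        linear_combination (x ^ a * x ^ j * (1 - x) ^ (M - j)) * hc'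
    _ = _ := by rw [← Finset.mul_sum, ← hb, mul_one]

lemma bern_rr (x : A) {N a : ℕ} (h : a ≤ N) :
    ∑ j ∈ Finset.range (N + 1), rr N a j • bern x N j = x ^ a := by
  have hN : (N.choose a : ℝ) ≠ 0 := by
    have := Nat.choose_pos h
    positivity
  have e := bern_sum x h
  have : ∀ j, rr N a j • bern x N j = (N.choose a : ℝ)⁻¹ • ((j.choose a : A) * bern x N j) := by
    intro j
    rw [← nsmul_eq_mul, ← Nat.cast_smul_eq_nsmul ℝ, smul_smul, rr, div_eq_inv_mul]
  simp_rw [this]
  rw [← Finset.smul_sum, e, ← nsmul_eq_mul, ← Nat.cast_smul_eq_nsmul ℝ, smul_smul,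
    inv_mul_cancel₀ hN, one_smul]

lemma bern_two (x y : A) (L : A →ₗ[ℝ] ℝ) {N a c : ℕ} (ha : a ≤ N) (hc : c ≤ N) :
    ∑ j ∈ Finset.range (N + 1), ∑ k ∈ Finset.range (N + 1),
      L (bern x N j * bern y N k) * (rr N a j * rr N c k) = L (x ^ a * y ^ c) := by
  rw [← bern_rr x ha, ← bern_rr y hc, Finset.sum_mul_sum, map_sum]
  apply Finset.sum_congr rfl
  intro j _
  rw [map_sum]
  apply Finset.sum_congr rfl
  intro k _
  rw [smul_mul_smul_comm, map_smul, smul_eq_mul, mul_comm]

lemma bern_nonneg (x y : A) (L : A →ₗ[ℝ] ℝ)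
    (h : ∀ a b c d : ℕ, 0 ≤ L (x ^ a * (1 - x) ^ b * y ^ c * (1 - y) ^ d)) (N j k : ℕ) :
    0 ≤ L (bern x N j * bern y N k) := by
  have : bern x N j * bern y N k = ((N.choose j : ℝ) * (N.choose k : ℝ)) •
      (x ^ j * (1 - x) ^ (N - j) * y ^ k * (1 - y) ^ (N - k)) := by
    rw [← Nat.cast_mul, Nat.cast_smul_eq_nsmul, nsmul_eq_mul]
    unfold bern
    push_cast
    ring
  rw [this, map_smul, smul_eq_mul]
  exact mul_nonneg (by positivity) (h _ _ _ _)

lemma bern_tendsto (x y : A) (L : A →ₗ[ℝ] ℝ)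
    (h : ∀ a b c d : ℕ, 0 ≤ L (x ^ a * (1 - x) ^ b * y ^ c * (1 - y) ^ d)) (a c : ℕ) :
    Tendsto (fun N : ℕ => ∑ j ∈ Finset.range (N + 1), ∑ k ∈ Finset.range (N + 1),
      L (bern x N j * bern y N k) * (((j : ℝ) / N) ^ a * ((k : ℝ) / N) ^ c)) atTop
      (𝓝 (L (x ^ a * y ^ c))) := by
  have t0 : ∀ a : ℕ, Tendsto (fun N : ℕ => (a : ℝ) ^ 2 / ((N : ℝ) - a)) atTop (𝓝 0) := by
    intro a
    apply Tendsto.div_atTop tendsto_const_nhds
    exact tendsto_atTop_add_const_right _ (-(a : ℝ)) tendsto_natCast_atTop_atTop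
  have t1 : Tendsto (fun N : ℕ => L 1 * ((a : ℝ) ^ 2 / ((N : ℝ) - a) + (c : ℝ) ^ 2 / ((N : ℝ) - c)))
      atTop (𝓝 0) := by
    simpa using ((t0 a).add (t0 c)).const_mul (L 1)
  rw [tendsto_iff_norm_sub_tendsto_zero]
  refine squeeze_zero' (Eventually.of_forall fun _ => norm_nonneg _) ?_ t1
  filter_upwards [eventually_gt_atTop a, eventually_gt_atTop c] with N ha hc
  have h1 := bern_two x y L (Nat.zero_le N) (Nat.zero_le N)
  simp only [rr, Nat.choose_zero_right, Nat.cast_one, div_one, mul_one, pow_zero] at h1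
  rw [← bern_two x y L ha.le hc.le, ← h1, ← Finset.sum_sub_distrib, Finset.sum_mul]
  refine (norm_sum_le _ _).trans (Finset.sum_le_sum fun j hj => ?_)
  rw [← Finset.sum_sub_distrib, Finset.sum_mul]
  refine (norm_sum_le _ _).trans (Finset.sum_le_sum fun k hk => ?_)
  have hj' : j ≤ N := by have := Finset.mem_range.1 hj; omega
  have hk' : k ≤ N := by have := Finset.mem_range.1 hk; omega
  rw [← mul_sub, norm_mul, Real.norm_of_nonneg (bern_nonneg x y L h N j k)]
  apply mul_le_mul_of_nonneg_left _ (bern_nonneg x y L h N j k)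
  have e1 := rr_approx hj' a ha
  have e2 := rr_approx hk' c hc
  have hN : (0 : ℝ) < N := by exact_mod_cast (by omega : 0 < N)
  have hkN : (k : ℝ) ≤ N := by exact_mod_cast hk'
  have q0 : (0 : ℝ) ≤ ((k : ℝ) / N) ^ c := by positivity
  have q1 : ((k : ℝ) / N) ^ c ≤ 1 := pow_le_one₀ (by positivity) (div_le_one_of_le₀ hkN hN.le)
  obtain ⟨r0, r1⟩ := rr_bounds (a := a) hj'
  have hs : ((j : ℝ) / N) ^ a * ((k : ℝ) / N) ^ c - rr N a j * rr N c k
      = -(((k : ℝ) / N) ^ c * (rr N a j - ((j : ℝ) / N) ^ a)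
        + rr N a j * (rr N c k - ((k : ℝ) / N) ^ c)) := by ring
  rw [hs, norm_neg, Real.norm_eq_abs]
  refine (abs_add_le _ _).trans (add_le_add ?_ ?_)
  · rw [abs_mul, abs_of_nonneg q0]
    exact (mul_le_of_le_one_left (abs_nonneg _) q1).trans e1
  · rw [abs_mul, abs_of_nonneg r0]
    exact (mul_le_of_le_one_left (abs_nonneg _) r1).trans e2

/-- grid point in the unit interval -/
noncomputable def gpt (N j : ℕ) : unitInterval := Set.projIcc 0 1 zero_le_one ((j : ℝ) / N)

lemma gpt_coe {N j : ℕ} (h : j ≤ N) : (gpt N j : ℝ) = (j : ℝ) / N := by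
  have hjN : (j : ℝ) ≤ N := by exact_mod_cast h
  unfold gpt
  rw [Set.projIcc_of_mem _ ⟨by positivity, div_le_one_of_le₀ hjN (by positivity)⟩]

theorem hausdorff2 (x y : A) (L : A →ₗ[ℝ] ℝ)
    (h : ∀ a b c d : ℕ, 0 ≤ L (x ^ a * (1 - x) ^ b * y ^ c * (1 - y) ^ d)) :
    ∃ m : Measure (unitInterval × unitInterval), IsFiniteMeasure m ∧
      ∀ a c : ℕ, L (x ^ a * y ^ c) = ∫ z, (z.1 : ℝ) ^ a * (z.2 : ℝ) ^ c ∂m := by
  let μ : ℕ → Measure (unitInterval × unitInterval) := fun N =>
    ∑ j ∈ Finset.range (N + 1), ∑ k ∈ Finset.range (N + 1),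
      (L (bern x N j * bern y N k)).toNNReal • Measure.dirac (gpt N j, gpt N k)
  have hfin : ∀ N, IsFiniteMeasure (μ N) := fun N => inferInstance
  have hint : ∀ (N : ℕ) (f : unitInterval × unitInterval → ℝ), Continuous f →
      ∫ z, f z ∂(μ N) = ∑ j ∈ Finset.range (N + 1), ∑ k ∈ Finset.range (N + 1),
        L (bern x N j * bern y N k) * f (gpt N j, gpt N k) := by
    intro N f hf
    have hi : ∀ (ν : Measure (unitInterval × unitInterval)) [IsFiniteMeasure ν], Integrable f ν :=
      fun ν _ => hf.integrable_of_hasCompactSupport (HasCompactSupport.of_compactSpace f)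
    simp only [μ]
    rw [integral_finsetSum_measure (fun j _ => hi _)]
    apply Finset.sum_congr rfl
    intro j _
    rw [integral_finsetSum_measure (fun k _ => hi _)]
    apply Finset.sum_congr rfl
    intro k _
    rw [integral_smul_nnreal_measure, integral_dirac, NNReal.smul_def, smul_eq_mul,
      Real.coe_toNNReal _ (bern_nonneg x y L h N j k)]
  let ν : ℕ → FiniteMeasure (unitInterval × unitInterval) := fun N => ⟨μ N, hfin N⟩
  have hmass : ∀ N, (ν N).mass ≤ (L 1).toNNReal := by
    intro N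
    have h1 := bern_two x y L (Nat.zero_le N) (Nat.zero_le N)
    simp only [rr, Nat.choose_zero_right, Nat.cast_one, div_one, mul_one, pow_zero] at h1
    have h2 := hint N (fun _ => 1) continuous_const
    simp only [mul_one] at h2
    rw [h1, integral_const, smul_eq_mul, mul_one] at h2
    rw [← h2]
    apply le_of_eq
    rw [← NNReal.coe_inj, Real.coe_toNNReal _ measureReal_nonneg]
    rfl
  have hK := isCompact_setOfPred_finiteMeasure_le_of_compactSpace
    (unitInterval × unitInterval) (L 1).toNNReal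
  obtain ⟨m, -, hm⟩ := hK.ultrafilter_le_nhds' ((hyperfilter ℕ).map ν)
    (by simp only [Ultrafilter.mem_map]; exact univ_mem' hmass)
  refine ⟨m, inferInstance, fun a c => ?_⟩
  have hm' : Tendsto ν (hyperfilter ℕ) (𝓝 m) := hm
  let f : BoundedContinuousFunction (unitInterval × unitInterval) ℝ :=
    BoundedContinuousFunction.mkOfCompact ⟨fun z => (z.1 : ℝ) ^ a * (z.2 : ℝ) ^ c, by fun_prop⟩
  have t1 := FiniteMeasure.tendsto_iff_forall_integral_tendsto.1 hm' f
  have t2 : Tendsto (fun N => ∫ z, f z ∂(ν N : Measure _)) atTop (𝓝 (L (x ^ a * y ^ c))) := by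
    refine (bern_tendsto x y L h a c).congr fun N => ?_
    have := hint N f f.continuous
    refine Eq.trans ?_ this.symm
    apply Finset.sum_congr rfl
    intro j hj
    apply Finset.sum_congr rfl
    intro k hk
    have hj' : j ≤ N := by have := Finset.mem_range.1 hj; omega
    have hk' : k ≤ N := by have := Finset.mem_range.1 hk; omega
    simp only [f, BoundedContinuousFunction.mkOfCompact_apply, ContinuousMap.coe_mk, gpt_coe hj',
      gpt_coe hk']
  exact tendsto_nhds_unique (t2.mono_left Nat.hyperfilter_le_atTop) t1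

end alg

end Vale.P153.Spec
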