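import Vale.Agent.P153.Spec.Fatou
import Vale.Agent.P153.Spec.Diff

/-! The reflection norm of the lattice Laplacian of a test function tends to zero. -/

namespace Vale.P153.Spec

open MeasureTheory Filter Topology Complex
open scoped BigOperators

/-- lattice Laplacian, seen from the row above -/
noncomputable def Lp (δ : ℝ) (φ : ℂ → ℝ) (w : ℂ) : ℝ :=
  (φ w + φ (w + dn δ + dn δ) - 2 * φ (w + dn δ)) / 3 +
    (φ (w + δ * (1 : ℤ) + dn δ) + φ (w + δ * (-1 : ℤ) + dn δ) - 2 * φ (w + dn δ))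

/-- symbol of the Laplacian -/
noncomputable def ell (z : ℝ × ℝ) : ℝ := (1 - z.1) ^ 2 / 3 - z.1 * (2 * (1 - Real.cos z.2))

lemma Etr_Lp {δ R : ℝ} (hδ : 0 < δ) {φ : ℂ → ℝ} (hφ : Bd R φ) (hu : Up φ) (z : ℝ × ℝ) :
    Etr δ (Lp δ φ) z = ell z * Etr δ φ z := by
  have b1 := hφ.shift (dn δ)
  have u1 := hu.shift (dn_im hδ)
  have e1 := Etr_shift_t δ hu z
  have e2 := Etr_shift_t δ u1 z
  have e3 := Etr_shift_s δ (fun w => φ (w + dn δ)) z 1
  have e4 := Etr_shift_s δ (fun w => φ (w + dn δ)) z (-1)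
  have h0 := (Etr_summable hδ hφ z).hasSum
  have h1 := (Etr_summable hδ b1 z).hasSum
  have h2 := (Etr_summable hδ (b1.shift (dn δ)) z).hasSum
  have h3 := (Etr_summable hδ (b1.shift (δ * (1 : ℤ))) z).hasSum
  have h4 := (Etr_summable hδ (b1.shift (δ * (-1 : ℤ))) z).hasSum
  have h := (((h0.add h2).sub (h1.mul_left 2)).div_const 3).add ((h3.add h4).sub (h1.mul_left 2))
  have h5 : HasSum (fun x : ℤ × ℕ => (Lp δ φ (pt δ x) : ℂ) * wt z x) _ := h.congr_fun fun x => by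
    simp only [Lp]
    push_cast
    ring
  unfold Etr at e1 e2 e3 e4 ⊢
  rw [h5.tsum_eq, e2, e3, e4, e1]
  have c : Complex.exp (((-((1 : ℤ) * z.2) : ℝ) : ℂ) * I) +
      Complex.exp (((-((-1 : ℤ) * z.2) : ℝ) : ℂ) * I) = 2 * (Real.cos z.2 : ℂ) := by
    rw [ofReal_cos, two_cos, add_comm]
    congr 2 <;> push_cast <;> ring
  simp only [ell]
  push_cast at c ⊢
  linear_combination ((z.1 : ℂ) * ∑' x : ℤ × ℕ, (φ (pt δ x) : ℂ) * wt z x) * c

lemma ell_sq_le {z : ℝ × ℝ} (z0 : 0 ≤ z.1) (z1 : z.1 ≤ 1) (hD : 0 < D z) :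
    ell z ^ 2 ≤ (gfun z + 2 * D z) * ((1 - z.1) ^ 2 + 2 * (1 - Real.cos z.2)) ^ 2 := by
  have hp := den_pos z1 hD
  have c := Real.cos_le_one z.2
  unfold gfun
  rw [add_mul, div_mul_cancel₀ _ (by positivity)]
  unfold ell D
  obtain ⟨x, hx⟩ : ∃ x, z.1 = 1 - x := ⟨1 - z.1, by ring⟩
  obtain ⟨u, hu⟩ : ∃ u, Real.cos z.2 = 1 - u := ⟨1 - Real.cos z.2, by ring⟩
  rw [hx] at z0 z1
  rw [hu] at c
  rw [hx, hu]
  simp only [sub_sub_cancel]
  have x0 : 0 ≤ x := by linarith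
  have u0 : 0 ≤ u := by linarith
  have h1 : x ^ 2 ≤ x + u := by nlinarith
  have h2 : (2 * u) ^ 2 ≤ (x ^ 2 + 2 * u) ^ 2 :=
    pow_le_pow_left₀ (by positivity) (by nlinarith [sq_nonneg x]) 2
  have h3 : x ^ 2 * (2 * u) ^ 2 ≤ (x + u) * (x ^ 2 + 2 * u) ^ 2 :=
    mul_le_mul h1 h2 (by positivity) (by positivity)
  have h4 := sq_nonneg ((x ^ 2 - 6 * u) / 3 - x * (2 * u))
  have h5 := sq_nonneg (x ^ 2 - 6 * u)
  linarith only [h3, h4, h5]

variable {W : ℤ × ℕ → ℝ} {m : Measure (ℝ × ℝ)}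

theorem rect_tendsto (hW : RectRP W) (hm : Represents W m) {φ : ℂ → ℝ} (hs : ContDiff ℝ 4 φ)
    (hc : HasCompactSupport φ) (hu : Up φ) {δ : ℕ → ℝ} (hpos : ∀ n, 0 < δ n)
    (hδ : Tendsto δ atTop (𝓝 0)) :
    Tendsto (fun n => ∫ z, ‖Etr (δ n) (Lp (δ n) φ) z‖ ^ 2 / D z ∂m) atTop (𝓝 0) := by
  have := hm.fin
  obtain ⟨R, hR, hφ⟩ := hc.exists_pos_le_norm
  obtain ⟨C, hC⟩ := Etr_decay hs hc hu
  have hev : ∀ᶠ n in atTop, δ n ≤ 1 := hδ.eventually (ge_mem_nhds one_pos)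
  simp only [fun n => Etr_Lp (hpos n) hφ hu]
  have := tendsto_integral_filter_of_dominated_convergence (μ := m) (l := atTop)
    (F := fun n z => ‖(ell z : ℂ) * Etr (δ n) φ z‖ ^ 2 / D z) (f := fun _ => 0)
    (fun z => C ^ 2 * (gfun z / D z + 2)) (Eventually.of_forall fun n => ?_) ?_
    (((integrable_gfun hW hm).add (integrable_const 2)).const_mul _) ?_
  · simpa using this
  · have h1 := continuous_Etr (hpos n) hφ
    have h2 : Continuous ell := by unfold ell; fun_prop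
    exact (Measurable.div (Continuous.measurable (by fun_prop)) measurable_D).aestronglyMeasurable
  · filter_upwards [hev] with n hn
    filter_upwards [hm.supp] with z hz
    have hD := hz.2.2
    have hp := den_pos hz.2.1 hD
    have h1 := (hC _ (hpos n) hn z hz.1 hz.2.1).1
    have h2 := pow_le_pow_left₀ (by positivity) h1 2
    have h3 := ell_sq_le hz.1 hz.2.1 hD
    have g0 : 0 ≤ gfun z := by unfold gfun; positivity
    rw [Real.norm_of_nonneg (by positivity), div_le_iff₀ hD, norm_mul, mul_pow, norm_real,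
      Real.norm_eq_abs, sq_abs]
    have e : C ^ 2 * (gfun z / D z + 2) * D z = (gfun z + 2 * D z) * C ^ 2 := by
      field_simp
    rw [e]
    calc _ ≤ (gfun z + 2 * D z) * ((1 - z.1) ^ 2 + 2 * (1 - Real.cos z.2)) ^ 2 *
          ‖Etr (δ n) φ z‖ ^ 2 := mul_le_mul_of_nonneg_right h3 (by positivity)
      _ = (gfun z + 2 * D z) * (((1 - z.1) ^ 2 + 2 * (1 - Real.cos z.2)) *
          ‖Etr (δ n) φ z‖) ^ 2 := by ring
      _ ≤ _ := mul_le_mul_of_nonneg_left h2 (by positivity)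
  · filter_upwards [hm.supp] with z hz
    have hp := den_pos hz.2.1 hz.2.2
    have t1 : Tendsto (fun n => Etr (δ n) φ z) atTop (𝓝 0) := by
      have t0 : Tendsto (fun n => C * δ n ^ 2 / ((1 - z.1) ^ 2 + 2 * (1 - Real.cos z.2)) ^ 2)
          atTop (𝓝 0) := by
        simpa using ((hδ.pow 2).const_mul C).div_const
          (((1 - z.1) ^ 2 + 2 * (1 - Real.cos z.2)) ^ 2)
      refine squeeze_zero_norm' ?_ t0
      filter_upwards [hev] with n hn
      rw [le_div_iff₀' (by positivity)]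
      exact (hC _ (hpos n) hn z hz.1 hz.2.1).2
    simpa using (((t1.const_mul (ell z : ℂ)).norm.pow 2).div_const (D z))

lemma kern_integrable' (hm : Represents W m) (t : ℕ) (s : ℤ) :
    Integrable (fun z : ℝ × ℝ => (1 - z.1 ^ t * Real.cos (s * z.2)) / D z) m := by
  obtain ⟨n, rfl | rfl⟩ := Int.eq_nat_or_neg s
  · simp only [Int.cast_natCast]
    exact kern_integrable hm t n
  · simp only [Int.cast_neg, Int.cast_natCast, neg_mul, Real.cos_neg]
    exact kern_integrable hm t n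

lemma norm_sq_sum {ι : Type*} (S : Finset ι) (a : ι → ℝ) (σ : ι → ℤ × ℕ) (z : ℝ × ℝ) :
    ‖∑ x ∈ S, (a x : ℂ) * wt z (σ x)‖ ^ 2 = ∑ x ∈ S, ∑ y ∈ S, a x * a y *
      (z.1 ^ ((σ x).2 + (σ y).2) * Real.cos (((σ x).1 - (σ y).1 : ℤ) * z.2)) := by
  rw [Complex.sq_norm, normSq_apply, re_sum, im_sum, Finset.sum_mul_sum, Finset.sum_mul_sum,
    ← Finset.sum_add_distrib]
  apply Finset.sum_congr rfl
  intro x _
  rw [← Finset.sum_add_distrib]
  apply Finset.sum_congr rfl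
  intro y _
  simp only [wt, ← ofReal_pow, re_ofReal_mul, im_ofReal_mul, exp_ofReal_mul_I_re,
    exp_ofReal_mul_I_im]
  push_cast
  rw [sub_mul, Real.cos_sub]
  ring

lemma quad_eq (hm : Represents W m) {ι : Type*} (S : Finset ι) (a : ι → ℝ) (σ : ι → ℤ × ℕ)
    (ha : ∑ x ∈ S, a x = 0) :
    -(1 / 2) * ∑ x ∈ S, ∑ y ∈ S, a x * a y * W ((σ x).1 - (σ y).1, (σ x).2 + (σ y).2) =
      ∫ z, ‖∑ x ∈ S, (a x : ℂ) * wt z (σ x)‖ ^ 2 / D z ∂m := by
  have e : ∀ z : ℝ × ℝ, ‖∑ x ∈ S, (a x : ℂ) * wt z (σ x)‖ ^ 2 / D z =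
      ∑ x ∈ S, ∑ y ∈ S, -(a x * a y) * ((1 - z.1 ^ ((σ x).2 + (σ y).2) *
        Real.cos (((σ x).1 - (σ y).1 : ℤ) * z.2)) / D z) := by
    intro z
    have h0 : ∑ x ∈ S, ∑ y ∈ S, a x * a y = 0 := by rw [← Finset.sum_mul_sum, ha, mul_zero]
    rw [norm_sq_sum, ← sub_zero (∑ x ∈ S, _), ← h0, ← Finset.sum_sub_distrib, Finset.sum_div]
    apply Finset.sum_congr rfl
    intro x _
    rw [← Finset.sum_sub_distrib, Finset.sum_div]
    apply Finset.sum_congr rfl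
    intro y _
    ring
  simp only [e]
  rw [integral_finsetSum _ fun x _ => integrable_finsetSum _ fun y _ =>
    (kern_integrable' hm _ _).const_mul _, Finset.mul_sum]
  apply Finset.sum_congr rfl
  intro x _
  rw [integral_finsetSum _ fun y _ => (kern_integrable' hm _ _).const_mul _, Finset.mul_sum]
  apply Finset.sum_congr rfl
  intro y _
  rw [integral_const_mul, hm.eq]
  ring

/-- embedding of the rectangular half lattice -/
def emb (y : ℤ × ℕ) : ℤ × ℤ := (y.1 - y.2, 2 * y.2)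

lemma emb_inj : Function.Injective emb := by
  rintro ⟨a, b⟩ ⟨c, d⟩ h
  simp only [emb, Prod.mk.injEq] at h ⊢
  omega

lemma emb_sub (x y : ℤ × ℕ) : emb x - R0 (emb y) = emb (x.1 - y.1, x.2 + y.2) := by
  ext
  · simp only [emb, R0, Prod.fst_sub]; push_cast; ring
  · simp only [emb, R0, Prod.snd_sub]; push_cast; ring

lemma RPData.rect {V : ℤ × ℤ → ℝ} (hV : RPData V) : RectRP fun y => V (emb y) where
  zero := by simpa [emb] using hV.zero
  even s t := by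
    have h1 := hV.refl (s - t) (2 * t)
    have h2 := hV.rot (s - t + 2 * t) (-(2 * t))
    have h3 := hV.rot (- -(2 * t)) (s - t + 2 * t + -(2 * t))
    have h4 := hV.rot (-(s - t + 2 * t + -(2 * t))) (- -(2 * t) + (s - t + 2 * t + -(2 * t)))
    simp only [emb]
    rw [← h1, ← h2, ← h3, ← h4]
    congr 2 <;> ring
  growth ε hε := by
    obtain ⟨C, hC⟩ := hV.growth (ε / 3) (by positivity)
    refine ⟨C, fun s t => (hC _ _).trans ?_⟩
    push_cast
    have h1 := abs_sub (s : ℝ) t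
    have h2 : |(2 : ℝ) * t| = 2 * t := abs_of_nonneg (by positivity)
    have h3 : |(t : ℝ)| = t := abs_of_nonneg (by positivity)
    have h4 := abs_nonneg (s : ℝ)
    have h5 : ε / 3 * (|(s : ℝ) - t| + |(2 : ℝ) * t|) ≤ ε / 3 * (3 * (|(s : ℝ)| + t)) :=
      mul_le_mul_of_nonneg_left (by linarith) (by positivity)
    linarith
  rp0 S a ha := by
    have := hV.rp (S.map ⟨emb, emb_inj⟩) (Function.extend emb a 0) (by
      intro x hx
      obtain ⟨y, -, rfl⟩ := Finset.mem_map.1 hx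
      simp [emb]) (by simpa [Finset.sum_map, emb_inj.extend_apply] using ha)
    simpa [Finset.sum_map, emb_inj.extend_apply, emb_sub] using this
  rp1 S a ha := by
    have inj : Function.Injective fun y : ℤ × ℕ => emb y + (0, 1) :=
      fun x y h => emb_inj (add_right_cancel h)
    have := hV.rp (S.map ⟨_, inj⟩) (Function.extend (fun y : ℤ × ℕ => emb y + (0, 1)) a 0) (by
      intro x hx
      obtain ⟨y, -, rfl⟩ := Finset.mem_map.1 hx
      simp only [emb, Function.Embedding.coeFn_mk, Prod.snd_add]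
      positivity) (by simpa only [Finset.sum_map, Function.Embedding.coeFn_mk,
        inj.extend_apply] using ha)
    have e : ∀ x y : ℤ × ℕ, emb x + (0, 1) - R0 (emb y + (0, 1)) =
        emb (x.1 - y.1, x.2 + y.2 + 1) := by
      intro x y
      ext
      · simp only [emb, R0, Prod.fst_sub, Prod.fst_add, Prod.snd_add]; push_cast; ring
      · simp only [emb, R0, Prod.snd_sub, Prod.snd_add]; push_cast; ring
    simpa only [Finset.sum_map, Function.Embedding.coeFn_mk, inj.extend_apply, e] using this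
  sym1 n := by
    simp only [emb]
    have h := hV.rot (3 * n - n) (2 * n)
    rw [← h]
    congr 2 <;> push_cast <;> ring
  sym2 n := by
    simp only [emb]
    have h := hV.rot (2 * n - (0 : ℕ)) (2 * (0 : ℕ))
    rw [← h]
    simp

lemma pos_emb (δ : ℝ) (y : ℤ × ℕ) (a b : ℤ) :
    (δ : ℂ) * pos ((emb y).1 + a - b, (emb y).2 + 2 * b) =
      pt δ y + δ * a - (b - 1) * dn δ := by
  apply Complex.ext
  · simp [pos, emb, pt, dn]
    ring
  · simp [pos, emb, pt, dn]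
    ring

lemma lap_emb (δ : ℝ) (φ : ℂ → ℝ) (y : ℤ × ℕ) :
    lap (fun x => φ (δ * pos x)) (emb y) = Lp δ φ (pt δ y) := by
  have h0 := pos_emb δ y 0 0
  have h1 := pos_emb δ y 0 1
  have h2 := pos_emb δ y 0 (-1)
  have h3 := pos_emb δ y 1 0
  have h4 := pos_emb δ y (-1) 0
  have ev : Even (emb y).2 := by simp [emb]
  simp only [add_zero, sub_zero, mul_zero, mul_one, Int.cast_zero, Int.cast_one, sub_self,
    zero_mul, zero_sub, neg_mul, one_mul, sub_neg_eq_add, Prod.mk.eta, mul_neg, Int.cast_neg,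
    ← sub_eq_add_neg] at h0 h1 h2 h3 h4
  have h2' : pt δ y - (-1 - 1) * dn δ = pt δ y + dn δ + dn δ := by ring
  rw [h2'] at h2
  simp only [lap, if_pos ev, Lp, h0, h1, h2, h3, h4, Int.cast_one, mul_one, Int.cast_neg, mul_neg,
    ← sub_eq_add_neg]

lemma lap_support {δ : ℝ} (hδ : 0 < δ) {φ : ℂ → ℝ} (hu : Up φ) {x : ℤ × ℤ}
    (hx : lap (fun y => φ (δ * pos y)) x ≠ 0) : x ∈ Set.range emb := by
  by_cases ev : Even x.2
  · obtain ⟨k, hk⟩ := ev
    rcases le_or_gt 0 k with h | h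
    · refine ⟨(x.1 + k, k.toNat), ?_⟩
      ext
      · simp only [emb]; omega
      · simp only [emb]; omega
    · exfalso
      apply hx
      have key : ∀ i j : ℤ, j ≤ 0 → φ (δ * pos (i, j)) = 0 := by
        intro i j hj
        apply hu
        have hj' : (j : ℝ) ≤ 0 := by exact_mod_cast hj
        have : (j : ℝ) * √3 / 2 ≤ 0 := by
          have := mul_nonpos_of_nonpos_of_nonneg hj' (Real.sqrt_nonneg 3)
          linarith
        simpa [pos] using mul_nonpos_of_nonneg_of_nonpos hδ.le this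
      simp only [lap, key _ (x.2 + 2) (by omega), key _ (x.2 - 2) (by omega),
        key _ x.2 (by omega)]
      simp
  · simp [lap, ev] at hx

lemma lap_row_nonneg {δ : ℝ} (hδ : 0 < δ) {φ : ℂ → ℝ} (hu : ∀ w : ℂ, w.im ≤ 0 → φ w = 0)
    {x : ℤ × ℤ} (hx : lap (fun y => φ (δ * pos y)) x ≠ 0) : 0 ≤ x.2 := by
  obtain ⟨y, rfl⟩ := lap_support hδ hu hx
  simp [emb]

lemma sum_lap {δ : ℝ} (hδ : 0 < δ) {φ : ℂ → ℝ} (hu : Up φ) {S : Finset (ℤ × ℤ)}
    {M : Type*} [AddCommMonoid M] (F : ℤ × ℤ → M)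
    (hF : ∀ x, lap (fun y => φ (δ * pos y)) x = 0 → F x = 0) :
    ∑ x ∈ S, F x = ∑ y ∈ S.preimage emb emb_inj.injOn, F (emb y) := by
  refine (Finset.sum_preimage emb S emb_inj.injOn F fun x _ hx => hF x ?_).symm
  by_contra h
  exact hx (lap_support hδ hu h)

lemma Etr_Lp_eq {δ : ℝ} {φ : ℂ → ℝ} {S : Finset (ℤ × ℤ)}
    (hS : ∀ x, lap (fun y => φ (δ * pos y)) x ≠ 0 → x ∈ S) (z : ℝ × ℝ) :
    Etr δ (Lp δ φ) z = ∑ y ∈ S.preimage emb emb_inj.injOn, (Lp δ φ (pt δ y) : ℂ) * wt z y := by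
  apply tsum_eq_sum
  intro y hy
  have : Lp δ φ (pt δ y) = 0 := by
    rw [← lap_emb]
    by_contra h
    exact hy (Finset.mem_preimage.2 (hS _ h))
  simp [this]

lemma sum_Lp_zero {δ : ℝ} (hδ : 0 < δ) {φ : ℂ → ℝ} (hc : HasCompactSupport φ) (hu : Up φ)
    {S : Finset (ℤ × ℤ)} (hS : ∀ x, lap (fun y => φ (δ * pos y)) x ≠ 0 → x ∈ S) :
    ∑ y ∈ S.preimage emb emb_inj.injOn, Lp δ φ (pt δ y) = 0 := by
  obtain ⟨R, -, hφ⟩ := hc.exists_pos_le_norm
  have h1 := Etr_Lp_eq hS (1, 0)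
  rw [Etr_Lp hδ hφ hu] at h1
  simp only [ell, wt, sub_self, Real.cos_zero, mul_zero, ofReal_one, one_pow, ofReal_zero,
    zero_mul, Complex.exp_zero, mul_one] at h1
  norm_num at h1
  exact_mod_cast h1.symm

/-- the lattice Laplacian of a test function is finitely supported -/
theorem exists_lap_support {δ : ℝ} (hδ : 0 < δ) {φ : ℂ → ℝ} (hc : HasCompactSupport φ)
    (hu : ∀ w : ℂ, w.im ≤ 0 → φ w = 0) :
    ∃ S : Finset (ℤ × ℤ), ∀ x, lap (fun y => φ (δ * pos y)) x ≠ 0 → x ∈ S := by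
  obtain ⟨R, -, hφ⟩ := hc.exists_pos_le_norm
  have b0 : Bd R φ := hφ
  have b1 := b0.shift (dn δ)
  have hL : Bd (R + 2 * ‖dn δ‖ + ‖(δ : ℂ) * (1 : ℤ)‖ + ‖(δ : ℂ) * (-1 : ℤ)‖) (Lp δ φ) := by
    intro w hw
    have n1 := norm_nonneg (dn δ)
    have n2 := norm_nonneg ((δ : ℂ) * (1 : ℤ))
    have n3 := norm_nonneg ((δ : ℂ) * (-1 : ℤ))
    have c0 := b0 w (by linarith)
    have c1 := b1 w (by linarith)
    have c2 := b1.shift (dn δ) w (by linarith)
    have c3 := b1.shift (δ * (1 : ℤ)) w (by linarith)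
    have c4 := b1.shift (δ * (-1 : ℤ)) w (by linarith)
    simp only at c1 c2 c3 c4
    simp only [Lp, c0, c1, c2, c3, c4]
    norm_num
  refine ⟨(box ⌈(R + 2 * ‖dn δ‖ + ‖(δ : ℂ) * (1 : ℤ)‖ + ‖(δ : ℂ) * (-1 : ℤ)‖) / δ⌉₊).map
    ⟨emb, emb_inj⟩, fun x hx => ?_⟩
  obtain ⟨y, rfl⟩ := lap_support hδ hu hx
  refine Finset.mem_map.2 ⟨y, ?_, rfl⟩
  by_contra hy
  rw [lap_emb] at hx
  exact hx (zero_off_box hδ hL hy)

/-- logarithmic growth implies the sublinear growth required in `RPData` -/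
theorem growth_of_log {V : ℤ × ℤ → ℝ} {C : ℝ}
    (h : ∀ i j : ℤ, |V (i, j)| ≤ C * (1 + Real.log (1 + (|(i : ℝ)| + |(j : ℝ)|)))) :
    ∀ ε : ℝ, 0 < ε → ∃ C' : ℝ, ∀ i j : ℤ, |V (i, j)| ≤ C' + ε * (|(i : ℝ)| + |(j : ℝ)|) := by
  intro ε hε
  have C0 : 0 ≤ C := by simpa using (abs_nonneg _).trans (h 0 0)
  have hη : 0 < ε / (C + 1) := by positivity
  refine ⟨C * (ε / (C + 1) - Real.log (ε / (C + 1))), fun i j => (h i j).trans ?_⟩
  set r := |(i : ℝ)| + |(j : ℝ)| with hr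
  have r0 : 0 ≤ r := by positivity
  have l1 := Real.log_le_sub_one_of_pos (x := ε / (C + 1) * (1 + r)) (by positivity)
  rw [Real.log_mul hη.ne' (by positivity)] at l1
  have l2 : C * (1 + Real.log (1 + r)) ≤
      C * (ε / (C + 1) - Real.log (ε / (C + 1)) + ε / (C + 1) * r) :=
    mul_le_mul_of_nonneg_left (by linarith) C0
  have l3 : C * (ε / (C + 1)) ≤ ε := by
    rw [mul_div_assoc', div_le_iff₀ (by positivity)]
    nlinarith
  have l4 := mul_le_mul_of_nonneg_right l3 r0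
  linarith

/-- the lattice Laplacian of a test function has total mass zero -/
theorem lap_sum_zero {δ : ℝ} (hδ : 0 < δ) {φ : ℂ → ℝ} (hc : HasCompactSupport φ)
    (hu : ∀ w : ℂ, w.im ≤ 0 → φ w = 0) {S : Finset (ℤ × ℤ)}
    (hS : ∀ x, lap (fun y => φ (δ * pos y)) x ≠ 0 → x ∈ S) :
    ∑ x ∈ S, lap (fun y => φ (δ * pos y)) x = 0 := by
  rw [sum_lap hδ hu _ fun _ h => h]
  simp only [lap_emb]
  exact sum_Lp_zero hδ hc hu hS

/-- **Part III.** The reflection norm of the lattice Laplacian of a test function vanishes. -/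
theorem harmonic {V : ℤ × ℤ → ℝ} (hV : RPData V) (φ : ℂ → ℝ) (hs : ContDiff ℝ 4 φ)
    (hc : HasCompactSupport φ) (h0 : ∀ w : ℂ, w.im ≤ 0 → φ w = 0) (δ : ℕ → ℝ)
    (hpos : ∀ n, 0 < δ n) (hδ : Tendsto δ atTop (𝓝 0)) (S : ℕ → Finset (ℤ × ℤ))
    (hS : ∀ n x, lap (fun y => φ (δ n * pos y)) x ≠ 0 → x ∈ S n) :
    Tendsto (fun n => -(1 / 2) * ∑ x ∈ S n, ∑ y ∈ S n,
      lap (fun y => φ (δ n * pos y)) x * lap (fun y => φ (δ n * pos y)) y * V (x - R0 y))
      atTop (𝓝 0) := by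
  obtain ⟨m, hm⟩ := rep hV.rect
  refine (rect_tendsto hV.rect hm hs hc h0 hpos hδ).congr fun n => ?_
  simp only [Etr_Lp_eq (hS n)]
  rw [← quad_eq hm _ _ (fun y => y) (sum_Lp_zero (hpos n) hc h0 (hS n)),
    sum_lap (hpos n) h0 _ fun x h => by simp [h]]
  congr 1
  apply Finset.sum_congr rfl
  intro x _
  rw [sum_lap (hpos n) h0 _ fun y h => by simp [h]]
  simp only [lap_emb, emb_sub]

end Vale.P153.Spec
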