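import Vale.Agent.P153.Spec.Alg
import Vale.Agent.P153.Spec.Hausdorff

/-! The spectral representation of the variance function. -/

namespace Vale.P153.Spec

open MeasureTheory Filter Topology
open scoped BigOperators

/-- the function `λ` -/
noncomputable def fX : C(ℝ × ℝ, ℝ) := ⟨fun z => z.1, by fun_prop⟩
/-- the function `(1 + cos p)/2` -/
noncomputable def fY : C(ℝ × ℝ, ℝ) := ⟨fun z => (1 + Real.cos z.2) / 2, by fun_prop⟩
/-- the function `cos (n p)` -/
noncomputable def fC (n : ℕ) : C(ℝ × ℝ, ℝ) := ⟨fun z => Real.cos (n * z.2), by fun_prop⟩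

/-- pairs (algebra element, symbol) -/
noncomputable def SS : Subalgebra ℝ (Al × C(ℝ × ℝ, ℝ)) :=
  Algebra.adjoin ℝ {(e 0 1, fX), (yy, fY)}

/-- the spectral box -/
def KK : Set (ℝ × ℝ) := Set.Icc 0 1 ×ˢ Set.Icc 0 Real.pi

lemma isCompact_KK : IsCompact KK := isCompact_Icc.prod isCompact_Icc

lemma integrable_KK {m : Measure (ℝ × ℝ)} [IsFiniteMeasure m] (h : ∀ᵐ z ∂m, z ∈ KK)
    {F : ℝ × ℝ → ℝ} (hF : Continuous F) : Integrable F m := by
  have := hF.continuousOn.integrableOn_compact (μ := m) isCompact_KK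
  rwa [IntegrableOn, Measure.restrict_eq_self_of_ae_mem h] at this

theorem moment (L : Al →ₗ[ℝ] ℝ)
    (h : ∀ a b c d : ℕ, 0 ≤ L (e 0 1 ^ a * (1 - e 0 1) ^ b * yy ^ c * (1 - yy) ^ d)) :
    ∃ m : Measure (ℝ × ℝ), IsFiniteMeasure m ∧ (∀ᵐ z ∂m, z ∈ KK) ∧
      ∀ w ∈ SS, L w.1 = ∫ z, w.2 z ∂m := by
  obtain ⟨m0, hfin, hm0⟩ := hausdorff2 (e 0 1) yy L h
  let φ : unitInterval × unitInterval → ℝ × ℝ := fun z => (z.1, Real.arccos (2 * z.2 - 1))
  have hφ : Continuous φ := by
    have := Real.continuous_arccos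
    fun_prop
  have hK : ∀ᵐ z ∂(m0.map φ), z ∈ KK := by
    exact (ae_map_iff hφ.aemeasurable (p := fun z => z ∈ KK)
      isCompact_KK.isClosed.measurableSet).2 (Eventually.of_forall fun z =>
      ⟨z.1.2, Real.arccos_nonneg _, Real.arccos_le_pi _⟩)
  refine ⟨m0.map φ, inferInstance, hK, ?_⟩
  intro w hw
  have hw' : w ∈ Submodule.span ℝ
      (Submonoid.closure ({(e 0 1, fX), (yy, fY)} : Set (Al × C(ℝ × ℝ, ℝ))) :
        Set (Al × C(ℝ × ℝ, ℝ))) := by
    rw [← Algebra.adjoin_eq_span]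
    exact hw
  clear hw
  induction hw' using Submodule.span_induction with
  | mem w hw =>
    obtain ⟨a, c, rfl⟩ := (Submonoid.mem_closure_pair _ _ _).1 hw
    rw [integral_map hφ.aemeasurable (by fun_prop)]
    simp only [Prod.fst_mul, Prod.pow_fst, Prod.snd_mul, Prod.pow_snd, hm0]
    apply integral_congr_ae
    refine Eventually.of_forall fun z => ?_
    have h1 := z.2.2.1
    have h2 := z.2.2.2
    simp only [ContinuousMap.mul_apply, ContinuousMap.pow_apply, fX, fY, ContinuousMap.coe_mk, φ]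
    rw [Real.cos_arccos (by linarith) (by linarith)]
    ring
  | zero => simp
  | add x y _ _ hx hy =>
    simp only [Prod.fst_add, map_add, hx, hy, Prod.snd_add, ContinuousMap.add_apply]
    rw [integral_add (integrable_KK hK x.2.continuous) (integrable_KK hK y.2.continuous)]
  | smul r x _ hx =>
    simp only [Prod.smul_fst, map_smul, hx, Prod.smul_snd, ContinuousMap.smul_apply, smul_eq_mul]
    rw [integral_const_mul]

lemma mem_T : (e 0 1, fX) ∈ SS := Algebra.subset_adjoin (by simp)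
lemma mem_y : (yy, fY) ∈ SS := Algebra.subset_adjoin (by simp)

/-- `cos (n p)` in the algebra -/
noncomputable def Cs (n : ℕ) : Al := (1 / 2 : ℝ) • (e n 0 + e (-n) 0)

lemma Cs_zero : Cs 0 = 1 := by
  simp only [Cs, Nat.cast_zero, neg_zero, e_zero]
  module

lemma two_eq : (2 : Al) = (2 : ℝ) • (1 : Al) := by
  rw [← Algebra.algebraMap_eq_smul_one, map_ofNat]

lemma Cs_one : Cs 1 = 2 * yy - 1 := by
  simp only [Cs, Nat.cast_one, yy, two_eq, smul_mul_assoc, one_mul]
  module

lemma Cs_rec (n : ℕ) : Cs (n + 2) = 2 * (Cs 1 * Cs (n + 1)) - Cs n := by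
  simp only [Cs, two_eq, smul_mul_assoc, one_mul, mul_smul_comm, mul_add, add_mul, e_mul]
  push_cast
  have h1 : (1 + ((n : ℤ) + 1)) = n + 2 := by ring
  have h2 : (-1 + ((n : ℤ) + 1)) = n := by ring
  have h3 : (1 + -((n : ℤ) + 1)) = -n := by ring
  have h4 : (-1 + -((n : ℤ) + 1)) = -(n + 2) := by ring
  simp only [h1, h2, h3, h4]
  module

lemma mem_C (n : ℕ) : (Cs n, fC n) ∈ SS := by
  have h1 : (Cs 1, fC 1) ∈ SS := by
    have : (Cs 1, fC 1) = (yy, fY) + (yy, fY) - 1 := by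
      ext z
      · simp only [Cs_one, two_mul, Prod.fst_sub, Prod.fst_add, Prod.fst_one]
      · simp [fC, fY]
    rw [this]
    exact SS.sub_mem (SS.add_mem mem_y mem_y) SS.one_mem
  induction n using Nat.twoStepInduction with
  | zero =>
    have : (Cs 0, fC 0) = 1 := by
      ext z
      · simp [Cs_zero]
      · simp [fC]
    rw [this]
    exact SS.one_mem
  | one => exact h1
  | more n a b =>
    have : (Cs (n + 2), fC (n + 2)) = (Cs 1, fC 1) * (Cs (n + 1), fC (n + 1)) +
        (Cs 1, fC 1) * (Cs (n + 1), fC (n + 1)) - (Cs n, fC n) := by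
      ext z
      · simp only [Cs_rec, two_mul, Prod.fst_sub, Prod.fst_add, Prod.fst_mul]
      · simp only [fC, Prod.snd_sub, Prod.snd_add, Prod.snd_mul, ContinuousMap.sub_apply,
          ContinuousMap.add_apply, ContinuousMap.mul_apply, ContinuousMap.coe_mk]
        push_cast
        have e1 : ((n : ℝ) + 2) * z.2 = ((n : ℝ) + 1) * z.2 + z.2 := by ring
        have e2 : (n : ℝ) * z.2 = ((n : ℝ) + 1) * z.2 - z.2 := by ring
        rw [e1, e2, Real.cos_add, Real.cos_sub, one_mul]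
        ring
    rw [this]
    exact SS.sub_mem (SS.add_mem (SS.mul_mem h1 b) (SS.mul_mem h1 b)) a

/-- membership in the ideal of the point `(1,0)` -/
def InI (u : Al) : Prop :=
  ∃ w1 ∈ SS, ∃ w2 ∈ SS, u = (1 - e 0 1) * w1.1 + 2 * (1 - yy) * w2.1

lemma InI.add {u v : Al} (hu : InI u) (hv : InI v) : InI (u + v) := by
  obtain ⟨a, ha, b, hb, rfl⟩ := hu
  obtain ⟨c, hc, d, hd, rfl⟩ := hv
  exact ⟨a + c, SS.add_mem ha hc, b + d, SS.add_mem hb hd, by
    simp only [Prod.fst_add]; ring⟩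

lemma InI.mul {u : Al} (hu : InI u) {w : Al × C(ℝ × ℝ, ℝ)} (hw : w ∈ SS) : InI (w.1 * u) := by
  obtain ⟨a, ha, b, hb, rfl⟩ := hu
  exact ⟨w * a, SS.mul_mem hw ha, w * b, SS.mul_mem hw hb, by
    simp only [Prod.fst_mul]; ring⟩

lemma inI_C (n : ℕ) : InI (1 - Cs n) := by
  have h1 : InI (1 - Cs 1) := ⟨0, SS.zero_mem, 1, SS.one_mem, by
    simp only [Cs_one, Prod.fst_zero, Prod.fst_one]; ring⟩
  induction n using Nat.twoStepInduction with
  | zero => exact ⟨0, SS.zero_mem, 0, SS.zero_mem, by simp [Cs_zero]⟩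
  | one => exact h1
  | more n a b =>
    have h := ((b.mul (mem_C 1)).add (b.mul (mem_C 1))).add
      ((a.mul (SS.neg_mem SS.one_mem)).add (h1.add h1))
    have : 1 - Cs (n + 2) = Cs 1 * (1 - Cs (n + 1)) + Cs 1 * (1 - Cs (n + 1)) +
        ((-1) * (1 - Cs n) + ((1 - Cs 1) + (1 - Cs 1))) := by
      rw [Cs_rec]; ring
    rw [this]
    exact h

lemma inI_TC (t n : ℕ) : InI (1 - e 0 1 ^ t * Cs n) := by
  induction t with
  | zero => simpa using inI_C n
  | succ t ih =>
    have h1 : InI (1 - e 0 1) := ⟨1, SS.one_mem, 0, SS.zero_mem, by simp⟩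
    have h := (ih.mul mem_T).add h1
    have : 1 - e 0 1 ^ (t + 1) * Cs n = e 0 1 * (1 - e 0 1 ^ t * Cs n) + (1 - e 0 1) := by ring
    rw [this]
    exact h

/-- symbol of `BB` -/
noncomputable def fB : C(ℝ × ℝ, ℝ) := ⟨fun z => 1 - D z / 4, by unfold D; fun_prop⟩

lemma mem_B : (BB, fB) ∈ SS := by
  have : (BB, fB) = (1 / 4 : ℝ) • (1 + (e 0 1, fX) + ((yy, fY) + (yy, fY))) := by
    ext z
    · simp only [BB, two_mul, Prod.smul_fst, Prod.fst_add, Prod.fst_one]
    · simp [fB, fX, fY, D]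
      ring
  rw [this]
  exact SS.smul_mem (SS.add_mem (SS.add_mem SS.one_mem mem_T) (SS.add_mem mem_y mem_y)) _

lemma one_sub_BB : 1 - BB = (1 / 4 : ℝ) • ((1 - e 0 1) + 2 * (1 - yy)) := by
  simp only [BB, two_eq, smul_mul_assoc, one_mul]
  module

lemma D_nonneg {z : ℝ × ℝ} (h : z.1 ≤ 1) : 0 ≤ D z := by
  have := Real.cos_le_one z.2
  unfold D
  linarith

lemma D_le {z : ℝ × ℝ} (h : 0 ≤ z.1) : D z ≤ 3 := by
  have := Real.neg_one_le_cos z.2
  unfold D
  linarith

lemma abs_sin_nat_mul (n : ℕ) (x : ℝ) : |Real.sin (n * x)| ≤ n * |Real.sin x| := by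
  induction n with
  | zero => simp
  | succ n ih =>
    push_cast
    rw [add_mul, one_mul, Real.sin_add, add_mul, one_mul]
    refine (abs_add_le _ _).trans (add_le_add ?_ ?_)
    · rw [abs_mul]
      exact (mul_le_of_le_one_right (abs_nonneg _) (Real.abs_cos_le_one _)).trans ih
    · rw [abs_mul]
      exact mul_le_of_le_one_left (abs_nonneg _) (Real.abs_cos_le_one _)

lemma one_sub_cos_nat (n : ℕ) (p : ℝ) : 1 - Real.cos (n * p) ≤ (n : ℝ) ^ 2 * (1 - Real.cos p) := by
  have h := abs_sin_nat_mul n (p / 2)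
  have h2 : Real.sin (n * (p / 2)) ^ 2 ≤ (n * |Real.sin (p / 2)|) ^ 2 := by
    rw [← sq_abs (Real.sin _)]
    exact pow_le_pow_left₀ (abs_nonneg _) h 2
  rw [mul_pow, sq_abs] at h2
  have e1 : Real.cos (n * p) = 1 - 2 * Real.sin (n * (p / 2)) ^ 2 := by
    rw [← Real.cos_two_mul_eq_one_sub]; congr 1; ring
  have e2 : Real.cos p = 1 - 2 * Real.sin (p / 2) ^ 2 := by
    rw [← Real.cos_two_mul_eq_one_sub]; congr 1; ring
  rw [e1, e2]
  linarith

lemma kern_bound {z : ℝ × ℝ} (h0 : 0 ≤ z.1) (h1 : z.1 ≤ 1) (t n : ℕ) :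
    0 ≤ 1 - z.1 ^ t * Real.cos (n * z.2) ∧
      1 - z.1 ^ t * Real.cos (n * z.2) ≤ (t + (n : ℝ) ^ 2) * D z := by
  have a0 : 0 ≤ z.1 ^ t := pow_nonneg h0 t
  have a1 : z.1 ^ t ≤ 1 := pow_le_one₀ h0 h1
  have c1 := Real.cos_le_one (n * z.2)
  have c2 := Real.cos_le_one z.2
  have b1 := one_add_mul_sub_le_pow (a := z.1) (by linarith) t
  have b2 := one_sub_cos_nat n z.2
  have b3 : z.1 ^ t * (1 - Real.cos (n * z.2)) ≤ 1 - Real.cos (n * z.2) :=
    mul_le_of_le_one_left (by linarith) a1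
  have b4 : 0 ≤ z.1 ^ t * (1 - Real.cos (n * z.2)) := mul_nonneg a0 (by linarith)
  have b5 : 0 ≤ (t : ℝ) * (1 - Real.cos z.2) := mul_nonneg (by positivity) (by linarith)
  have b6 : 0 ≤ (n : ℝ) ^ 2 * (1 - z.1) := mul_nonneg (by positivity) (by linarith)
  unfold D
  constructor
  · linarith
  · linarith

lemma kern_div_bound {z : ℝ × ℝ} (h0 : 0 ≤ z.1) (h1 : z.1 ≤ 1) (t n : ℕ) :
    ‖(1 - z.1 ^ t * Real.cos (n * z.2)) / D z‖ ≤ t + (n : ℝ) ^ 2 := by
  obtain ⟨k0, k1⟩ := kern_bound h0 h1 t n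
  rw [Real.norm_of_nonneg (div_nonneg k0 (D_nonneg h1))]
  exact div_le_of_le_mul₀ (D_nonneg h1) (by positivity) k1

lemma tendsto_B {m : Measure (ℝ × ℝ)} [IsFiniteMeasure m] (h : ∀ᵐ z ∂m, z ∈ KK)
    (h' : ∀ᵐ z ∂m, 0 < D z) {F : ℝ × ℝ → ℝ} (hF : Integrable F m) :
    Tendsto (fun N : ℕ => ∫ z, F z * fB z ^ N ∂m) atTop (𝓝 0) := by
  have := tendsto_integral_of_dominated_convergence (μ := m)
    (F := fun N z => F z * fB z ^ N) (f := fun _ => 0) (fun z => ‖F z‖)
    (fun N => hF.aestronglyMeasurable.mul (by fun_prop)) hF.norm ?_ ?_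
  · simpa using this
  · intro N
    filter_upwards [h, h'] with z hz hD
    have := D_le hz.1.1
    rw [norm_mul]
    apply mul_le_of_le_one_right (norm_nonneg _)
    rw [norm_pow]
    apply pow_le_one₀ (norm_nonneg _)
    simp only [fB, ContinuousMap.coe_mk, Real.norm_eq_abs, abs_le]
    constructor <;> linarith
  · filter_upwards [h, h'] with z hz hD
    have := D_le hz.1.1
    have t := tendsto_pow_atTop_nhds_zero_of_lt_one (r := fB z)
      (by simp only [fB, ContinuousMap.coe_mk]; linarith)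
      (by simp only [fB, ContinuousMap.coe_mk]; linarith)
    simpa using t.const_mul (F z)

theorem rep {W : ℤ × ℕ → ℝ} (hW : RectRP W) : ∃ m : Measure (ℝ × ℝ), Represents W m := by
  obtain ⟨m1, f1, k1, h1⟩ := moment ((Lam W).comp (LinearMap.mulLeft ℝ (1 - e 0 1))) (by
    intro a b c d
    have := posC hW a (b + 1) c d (Or.inl (by omega))
    simp only [LinearMap.comp_apply, LinearMap.mulLeft_apply]
    have e1 : (1 - e 0 1) * (e 0 1 ^ a * (1 - e 0 1) ^ b * yy ^ c * (1 - yy) ^ d) =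
      e 0 1 ^ a * (1 - e 0 1) ^ (b + 1) * yy ^ c * (1 - yy) ^ d := by ring
    rwa [e1])
  obtain ⟨m2, f2, k2, h2⟩ := moment ((Lam W).comp (LinearMap.mulLeft ℝ (2 * (1 - yy)))) (by
    intro a b c d
    have := posC hW a b c (d + 1) (Or.inr (by omega))
    simp only [LinearMap.comp_apply, LinearMap.mulLeft_apply]
    have e1 : 2 * (1 - yy) * (e 0 1 ^ a * (1 - e 0 1) ^ b * yy ^ c * (1 - yy) ^ d) =
      e 0 1 ^ a * (1 - e 0 1) ^ b * yy ^ c * (1 - yy) ^ (d + 1) +
      e 0 1 ^ a * (1 - e 0 1) ^ b * yy ^ c * (1 - yy) ^ (d + 1) := by ring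
    rw [e1, map_add]
    linarith)
  simp only [LinearMap.comp_apply, LinearMap.mulLeft_apply] at h1 h2
  have k : ∀ᵐ z ∂(m1 + m2), z ∈ KK := by
    rw [ae_add_measure_iff]; exact ⟨k1, k2⟩
  have h : ∀ w ∈ SS, Lam W (((1 - e 0 1) + 2 * (1 - yy)) * w.1) = ∫ z, w.2 z ∂(m1 + m2) := by
    intro w hw
    rw [add_mul, map_add, h1 w hw, h2 w hw,
      integral_add_measure (integrable_KK k1 w.2.continuous) (integrable_KK k2 w.2.continuous)]
  have hgeom : ∀ w ∈ SS, ∀ N : ℕ, Lam W (w.1 * (1 - BB ^ N)) =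
      ∫ z, (1 / 4 : ℝ) * (w.2 z * ∑ j ∈ Finset.range N, fB z ^ j) ∂(m1 + m2) := by
    intro w hw N
    have hm : w * ∑ j ∈ Finset.range N, (BB, fB) ^ j ∈ SS :=
      SS.mul_mem hw (SS.sum_mem fun j _ => SS.pow_mem mem_B j)
    have := h _ hm
    simp only [Prod.fst_mul, Prod.snd_mul, Prod.fst_sum, Prod.snd_sum, Prod.pow_fst, Prod.pow_snd,
      ContinuousMap.mul_apply, ContinuousMap.sum_apply, ContinuousMap.pow_apply] at this
    rw [integral_const_mul, ← this, ← mul_neg_geom_sum, one_sub_BB, smul_mul_assoc, mul_smul_comm,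
      map_smul, smul_eq_mul]
    congr 2
    ring
  have hD : ∀ᵐ z ∂(m1 + m2), 0 < D z := by
    have hmeas : MeasurableSet {z : ℝ × ℝ | D z = 0} := by
      apply (isClosed_eq _ continuous_const).measurableSet
      unfold D; fun_prop
    have hz : (m1 + m2).real {z | D z = 0} = 0 := by
      apply le_antisymm _ measureReal_nonneg
      apply le_of_forall_pos_le_add
      intro ε hε
      obtain ⟨C, hC⟩ := Lam_BB hW (ε / 8) (by positivity)
      have hb : ∀ N : ℕ, (N : ℝ) / 4 * (m1 + m2).real {z | D z = 0} ≤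
          |Lam W 1| + C + ε / 8 * N := by
        intro N
        have e1 := hgeom 1 SS.one_mem N
        simp only [Prod.fst_one, Prod.snd_one, one_mul, ContinuousMap.one_apply, map_sub] at e1
        have e2 : ∫ z, Set.indicator {z | D z = 0} (fun _ => (N : ℝ) / 4) z ∂(m1 + m2) ≤
            ∫ z, (1 / 4 : ℝ) * ∑ j ∈ Finset.range N, fB z ^ j ∂(m1 + m2) := by
          apply integral_mono_ae ((integrable_const _).indicator hmeas)
            (integrable_KK k (by fun_prop))
          filter_upwards [k] with z hz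
          by_cases hz0 : D z = 0
          · rw [Set.indicator_of_mem (by exact hz0)]
            simp [fB, hz0]
            linarith
          · rw [Set.indicator_of_notMem (by exact hz0)]
            have := D_le hz.1.1
            have : 0 ≤ fB z := by simp only [fB, ContinuousMap.coe_mk]; linarith
            positivity
        rw [integral_indicator_const _ hmeas, smul_eq_mul, mul_comm, ← e1] at e2
        have := abs_le.1 (hC N)
        have := le_abs_self (Lam W 1)
        linarith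
      by_contra hcon
      push Not at hcon
      obtain ⟨N, hN⟩ := exists_nat_gt ((|Lam W 1| + C) / (ε / 8))
      rw [div_lt_iff₀ (by positivity)] at hN
      have := hb N
      have h3 : (N : ℝ) / 4 * ε ≤ (N : ℝ) / 4 * (m1 + m2).real {z | D z = 0} :=
        mul_le_mul_of_nonneg_left (by linarith) (by positivity)
      linarith
    rw [measureReal_eq_zero_iff] at hz
    filter_upwards [k, measure_eq_zero_iff_ae_notMem.1 hz] with z hz hz0
    exact lt_of_le_of_ne (D_nonneg hz.1.2) (Ne.symm hz0)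
  have hD' := hD
  rw [ae_add_measure_iff] at hD'
  have hnat : ∀ n t : ℕ, W (n, t) =
      2 * ∫ z, (1 - z.1 ^ t * Real.cos (n * z.2)) / D z ∂(m1 + m2) := by
    intro n t
    have hw : (1 : Al × C(ℝ × ℝ, ℝ)) - (e 0 1, fX) ^ t * (Cs n, fC n) ∈ SS :=
      SS.sub_mem SS.one_mem (SS.mul_mem (SS.pow_mem mem_T t) (mem_C n))
    have hL : Lam W (1 - e 0 1 ^ t * Cs n) = W (n, t) / 2 := by
      rw [map_sub, ← e_zero, e_pow, Cs, mul_smul_comm, mul_add, e_mul, e_mul, map_smul, map_add,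
        Lam_e, Lam_e, Lam_e, hW.zero]
      simp only [zero_add, add_zero, hW.even, smul_eq_mul]
      ring
    have hI : Integrable (fun z : ℝ × ℝ => (1 - z.1 ^ t * Real.cos (n * z.2)) / D z) (m1 + m2) := by
      refine Integrable.of_bound ?_ (t + (n : ℝ) ^ 2) ?_
      · apply Measurable.aestronglyMeasurable
        unfold D
        fun_prop
      · filter_upwards [k] with z hz
        exact kern_div_bound hz.1.1 hz.1.2 t n
    have t1 : Tendsto (fun N : ℕ => Lam W ((1 - e 0 1 ^ t * Cs n) * BB ^ N)) atTop (𝓝 0) := by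
      obtain ⟨w1, hw1, w2, hw2, hu⟩ := inI_TC t n
      have := (tendsto_B k1 hD'.1 (integrable_KK k1 w1.2.continuous)).add
        (tendsto_B k2 hD'.2 (integrable_KK k2 w2.2.continuous))
      rw [add_zero] at this
      refine this.congr fun N => ?_
      have a1 := h1 _ (SS.mul_mem hw1 (SS.pow_mem mem_B N))
      have a2 := h2 _ (SS.mul_mem hw2 (SS.pow_mem mem_B N))
      simp only [Prod.fst_mul, Prod.snd_mul, Prod.pow_fst, Prod.pow_snd,
        ContinuousMap.mul_apply, ContinuousMap.pow_apply] at a1 a2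
      rw [← a1, ← a2, hu, ← map_add]
      congr 1
      ring
    have t2 := (tendsto_B k hD hI).sub t1
    have t3 : (fun N : ℕ => ∫ z, (1 - z.1 ^ t * Real.cos (n * z.2)) / D z * fB z ^ N ∂(m1 + m2) -
        Lam W ((1 - e 0 1 ^ t * Cs n) * BB ^ N)) = fun _ =>
        ∫ z, (1 - z.1 ^ t * Real.cos (n * z.2)) / D z ∂(m1 + m2) - W (n, t) / 2 := by
      funext N
      have a := hgeom _ hw N
      simp only [Prod.fst_sub, Prod.fst_one, Prod.fst_mul, Prod.pow_fst] at a
      rw [mul_sub, mul_one, map_sub, hL] at a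
      have hIN : Integrable (fun z : ℝ × ℝ =>
          (1 - z.1 ^ t * Real.cos (n * z.2)) / D z * fB z ^ N) (m1 + m2) := by
        apply hI.mul_of_top_left
        apply memLp_top_of_bound (by fun_prop) 1
        filter_upwards [k, hD] with z hz hD
        have := D_le hz.1.1
        rw [norm_pow]
        apply pow_le_one₀ (norm_nonneg _)
        simp only [fB, ContinuousMap.coe_mk, Real.norm_eq_abs, abs_le]
        constructor <;> linarith
      have b : ∫ z, (1 / 4 : ℝ) * (((1 : Al × C(ℝ × ℝ, ℝ)) - (e 0 1, fX) ^ t * (Cs n, fC n)).2 z *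
          ∑ j ∈ Finset.range N, fB z ^ j) ∂(m1 + m2) =
          ∫ z, (1 - z.1 ^ t * Real.cos (n * z.2)) / D z ∂(m1 + m2) -
          ∫ z, (1 - z.1 ^ t * Real.cos (n * z.2)) / D z * fB z ^ N ∂(m1 + m2) := by
        rw [← integral_sub hI hIN]
        apply integral_congr_ae
        filter_upwards [hD] with z hz
        have g := mul_neg_geom_sum (fB z) N
        have g2 : 1 - fB z = D z / 4 := by simp [fB]
        rw [g2] at g
        simp only [Prod.snd_sub, Prod.snd_one, Prod.snd_mul, Prod.pow_snd, ContinuousMap.sub_apply,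
          ContinuousMap.one_apply, ContinuousMap.mul_apply, ContinuousMap.pow_apply, fX, fC,
          ContinuousMap.coe_mk]
        rw [← mul_one_sub, ← g]
        field_simp
      rw [b] at a
      linarith
    rw [t3, sub_zero] at t2
    have := tendsto_nhds_unique t2 tendsto_const_nhds
    linarith
  refine ⟨m1 + m2, inferInstance, ?_, ?_⟩
  · filter_upwards [k, hD] with z hz hD
    exact ⟨hz.1.1, hz.1.2, hD⟩
  · intro s t
    obtain ⟨n, rfl | rfl⟩ := Int.eq_nat_or_neg s
    · simpa using hnat n t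
    · rw [hW.even]
      simpa using hnat n t

end Vale.P153.Spec
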